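import Vale.Agent.Lib.H1.Basic

/-! Dominated almost everywhere approximation of `H¹` functions by smooth compactly supported
functions. -/

namespace Vale.Agent.Lib.H1

open MeasureTheory Set Filter Topology Vale.Agent.P349H
open scoped ENNReal ContDiff

noncomputable section

variable {E V W : Type*} [NormedAddCommGroup E] [NormedSpace ℝ E] [FiniteDimensional ℝ E]
  [MeasurableSpace E] [BorelSpace E] {vol : Measure E} [vol.IsAddHaarMeasure]
  [NormedAddCommGroup V] [NormedSpace ℝ V] [NormedAddCommGroup W] [NormedSpace ℝ W]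

omit [NormedSpace ℝ V] in
theorem dom_of_summable {α : Type*} [MeasurableSpace α] {μ : Measure α} {f : ℕ → α → V}
    (hm : ∀ k, AEStronglyMeasurable (f k) μ)
    (h : ∀ k, ∫⁻ x, ‖f k x‖ₑ ^ 2 ∂μ ≤ ENNReal.ofReal ((1 / 2) ^ k)) :
    ∃ D : α → ℝ, MemLp D 2 μ ∧
      ∀ᵐ x ∂μ, Tendsto (fun k => f k x) atTop (𝓝 0) ∧ ∀ k, ‖f k x‖ ≤ D x := by
  let S : α → ℝ≥0∞ := fun x => ∑' k, ‖f k x‖ₑ ^ 2
  have m1 : ∀ k, AEMeasurable (fun x => ‖f k x‖ₑ ^ 2) μ := fun k => (hm k).enorm.pow_const 2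
  have mS : AEMeasurable S μ := AEMeasurable.ennreal_tsum m1
  have hS : ∫⁻ x, S x ∂μ < ⊤ := by
    rw [lintegral_tsum m1]
    refine (ENNReal.tsum_le_tsum h).trans_lt ?_
    rw [← ENNReal.ofReal_tsum_of_nonneg (fun k => by positivity) summable_geometric_two]
    exact ENNReal.ofReal_lt_top
  have mD : AEStronglyMeasurable (fun x => √(S x).toReal) μ :=
    mS.ennreal_toReal.sqrt.aestronglyMeasurable
  refine ⟨fun x => √(S x).toReal, ?_, ?_⟩
  · rw [memLp_two_iff_integrable_sq_norm mD]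
    refine (integrable_toReal_of_lintegral_ne_top mS hS.ne).congr (ae_of_all _ fun x => ?_)
    simp only [Real.norm_eq_abs, sq_abs]
    rw [Real.sq_sqrt ENNReal.toReal_nonneg]
  · filter_upwards [ae_lt_top' mS hS.ne] with x hx
    have e : ∀ k, (‖f k x‖ₑ ^ 2).toReal = ‖f k x‖ ^ 2 := fun k => by simp
    refine ⟨?_, fun k => ?_⟩
    · have h1 := (ENNReal.tendsto_toReal (by simp : (0 : ℝ≥0∞) ≠ ⊤)).comp
        (ENNReal.tendsto_atTop_zero_of_tsum_ne_top hx.ne)
      simp only [Function.comp_def, e, ENNReal.toReal_zero] at h1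
      have h2 := (Real.continuous_sqrt.tendsto 0).comp h1
      simp only [Function.comp_def, Real.sqrt_sq (norm_nonneg _), Real.sqrt_zero] at h2
      exact tendsto_zero_iff_norm_tendsto_zero.2 h2
    · refine Real.le_sqrt_of_sq_le ?_
      rw [← e]
      exact ENNReal.toReal_mono hx.ne (ENNReal.le_tsum (f := fun k => ‖f k x‖ₑ ^ 2) k)

theorem exists_ker (vol : Measure E) [vol.IsAddHaarMeasure] {r : ℝ} (hr : 0 < r) :
    ∃ η : E → ℝ, Ker vol r η := by
  let b : ContDiffBump (0 : E) := ⟨r / 2, r, half_pos hr, half_lt_self hr⟩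
  refine ⟨b.normed vol, b.contDiff_normed, b.nonneg_normed, fun x hx => ?_, b.integral_normed⟩
  by_contra h0
  have : x ∈ Function.support (b.normed vol) := h0
  rw [b.support_normed_eq] at this
  exact absurd hx (by simpa using this)

omit [FiniteDimensional ℝ E] [BorelSpace E] [vol.IsAddHaarMeasure] in
theorem ker_mono {r r' : ℝ} {η : E → ℝ} (h : Ker vol r η) (hr : r ≤ r') : Ker vol r' η :=
  ⟨h.smooth, h.nonneg, fun x hx => h.supp x (hr.trans hx), h.int⟩

theorem moll_ev [CompleteSpace V] {g : E → V} (hg : MemLp g 2 vol) {ε : ℝ} (hε : 0 < ε) :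
    ∀ᶠ r in 𝓝[>] (0 : ℝ), ∀ η : E → ℝ, Ker vol r η →
      ∫⁻ z, ‖conv vol η g z - g z‖ₑ ^ 2 ∂vol ≤ ENNReal.ofReal ε := by
  obtain ⟨r, hr, H⟩ := moll_l2 hg hε
  filter_upwards [Ioo_mem_nhdsGT hr] with r' hr' η hη
  exact H η (ker_mono hη hr'.2.le)

omit [FiniteDimensional ℝ E] [vol.IsAddHaarMeasure] [BorelSpace E] in
theorem conv_zero {u : E → V} {r : ℝ} {η : E → ℝ} (hη : Ker vol r η) {z : E}
    (h : ∀ᵐ y ∂vol, ‖z - y‖ < r → u y = 0) : conv vol η u z = 0 := by
  refine integral_eq_zero_of_ae ?_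
  filter_upwards [h] with y hy
  by_cases h1 : ‖z - y‖ < r
  · simp [hy h1]
  · simp [hη.supp _ (not_lt.1 h1)]

theorem conv_mem [CompleteSpace V] {u : E → V} (hu : LocallyIntegrable u vol) {r : ℝ} {η : E → ℝ}
    (hη : Ker vol r η) {C : Set V} (hc : IsClosed C) (hv : Convex ℝ C)
    (h : ∀ᵐ y ∂vol, u y ∈ C) (z : E) : conv vol η u z ∈ C := by
  have hk : HasCompactSupport fun y => η (z - y) := hη.cpt.comp_homeomorph (Homeomorph.subLeft z)
  have hk' : Continuous fun y => η (z - y) := hη.smooth.continuous.comp (by fun_prop)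
  have hi : Integrable (fun y => η (z - y)) vol := hk'.integrable_of_hasCompactSupport hk
  let d : E → NNReal := fun y => (η (z - y)).toNNReal
  have md : Measurable d := hk'.measurable.real_toNNReal
  have ed : ∀ y, (d y : ℝ) = η (z - y) := fun y => Real.coe_toNNReal _ (hη.nonneg _)
  let μ : Measure E := vol.withDensity fun y => d y
  have : IsProbabilityMeasure μ := by
    constructor
    rw [withDensity_apply _ MeasurableSet.univ, Measure.restrict_univ]
    have h1 : ∫⁻ y, (d y : ℝ≥0∞) ∂vol = ∫⁻ y, ENNReal.ofReal (η (z - y)) ∂vol := rfl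
    rw [h1, lintegral_sub_left_eq_self (fun t => ENNReal.ofReal (η t)) z, hη.lint]
  have e : conv vol η u z = ∫ y, u y ∂μ := by
    rw [integral_withDensity_eq_integral_smul md]
    simp only [conv, NNReal.smul_def, ed]
  rw [e]
  refine hv.integral_mem hc ((withDensity_absolutelyContinuous _ _).ae_le h) ?_
  rw [integrable_withDensity_iff_integrable_smul md]
  simpa only [NNReal.smul_def, ed] using int_test hu hk' hk

/-- A sequence of smooth cutoffs tending to one, with uniformly small gradients. -/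
theorem exists_cutseq (E : Type*) [NormedAddCommGroup E] [NormedSpace ℝ E]
    [FiniteDimensional ℝ E] : ∃ (χ : ℕ → E → ℝ) (C : ℝ), 0 ≤ C ∧ (∀ k, ContDiff ℝ ∞ (χ k)) ∧
      (∀ k, HasCompactSupport (χ k)) ∧ (∀ k x, 0 ≤ χ k x ∧ χ k x ≤ 1) ∧
      (∀ k x, ‖fderiv ℝ (χ k) x‖ ≤ C / (k + 1)) ∧
      ∀ (k : ℕ) x, ‖x‖ < k + 1 → χ k x = 1 ∧ fderiv ℝ (χ k) x = 0 := by
  let b : ContDiffBump (0 : E) := ⟨1, 2, one_pos, one_lt_two⟩
  have hb : ContDiff ℝ ∞ b := b.contDiff
  obtain ⟨C, hC⟩ := (hb.continuous_fderiv (by simp)).bounded_above_of_compact_support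
    (b.hasCompactSupport.fderiv ℝ)
  have hd : ∀ (k : ℕ) x, HasFDerivAt (fun x : E => b (((k : ℝ) + 1)⁻¹ • x))
      (((k : ℝ) + 1)⁻¹ • fderiv ℝ b (((k : ℝ) + 1)⁻¹ • x)) x := fun k x => by
    have h1 := ((hb.differentiable (by simp)) (((k : ℝ) + 1)⁻¹ • x)).hasFDerivAt.comp x
      ((hasFDerivAt_id x).const_smul ((k : ℝ) + 1)⁻¹)
    refine h1.congr_fderiv ?_
    ext y; simp
  refine ⟨fun k x => b (((k : ℝ) + 1)⁻¹ • x), C, (norm_nonneg _).trans (hC 0), fun k => ?_,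
    fun k => ?_, fun k x => ⟨b.nonneg, b.le_one⟩, fun k x => ?_, fun k x hx => ?_⟩
  · exact hb.comp (contDiff_const_smul _)
  · exact b.hasCompactSupport.comp_smul (by positivity)
  · rw [(hd k x).fderiv, norm_smul, Real.norm_of_nonneg (by positivity), div_eq_inv_mul]
    gcongr
    exact hC _
  · have h0 : ((k : ℝ) + 1)⁻¹ • x ∈ Metric.ball (0 : E) b.rIn := by
      rw [mem_ball_zero_iff, norm_smul, Real.norm_of_nonneg (by positivity),
        inv_mul_lt_iff₀ (by positivity)]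
      simpa [b] using hx
    have h1 : (b : E → ℝ) =ᶠ[𝓝 _] 1 := b.eventuallyEq_one_of_mem_ball h0
    refine ⟨h1.eq_of_nhds, ?_⟩
    rw [(hd k x).fderiv, h1.fderiv_eq]
    simp

/-- Dominated approximation by smooth compactly supported functions.  The approximants stay in
closed convex sets containing zero, and vanish at distance `ρ` from the support. -/
theorem approx [CompleteSpace V] {ι : Type*} [Finite ι] {v : ι → E} {u : E → V} {g : ι → E → V}
    (hu : MemLp u 2 vol) (h : ∀ i, Hg vol u (g i) (v i)) {ρ : ℝ} (hρ : 0 < ρ) :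
    ∃ (w : ℕ → E → V) (D : E → ℝ), (∀ k, ContDiff ℝ ∞ (w k)) ∧ (∀ k, HasCompactSupport (w k)) ∧
      MemLp D 2 vol ∧
      (∀ᵐ x ∂vol, (Tendsto (fun k => w k x) atTop (𝓝 (u x)) ∧ ∀ k, ‖w k x‖ ≤ D x) ∧
        ∀ i, Tendsto (fun k => fderiv ℝ (w k) x (v i)) atTop (𝓝 (g i x)) ∧
          ∀ k, ‖fderiv ℝ (w k) x (v i)‖ ≤ D x) ∧
      (∀ C : Set V, IsClosed C → Convex ℝ C → 0 ∈ C → (∀ᵐ x ∂vol, u x ∈ C) →
        ∀ k x, w k x ∈ C) ∧
      ∀ k x, (∀ᵐ y ∂vol, ‖x - y‖ < ρ → u y = 0) → w k x = 0 := by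
  have := Fintype.ofFinite ι
  have hk : ∀ k : ℕ, ∃ η : E → ℝ, Ker vol ρ η ∧
      ∫⁻ z, ‖conv vol η u z - u z‖ₑ ^ 2 ∂vol ≤ ENNReal.ofReal ((1 / 2) ^ k) ∧
      ∀ i, ∫⁻ z, ‖conv vol η (g i) z - g i z‖ₑ ^ 2 ∂vol ≤ ENNReal.ofReal ((1 / 2) ^ k) := by
    intro k
    have hp : (0 : ℝ) < (1 / 2) ^ k := by positivity
    obtain ⟨r, ⟨h1, h2⟩, h3⟩ := (((moll_ev hu hp).and (eventually_all.2 fun i =>
      moll_ev (h i).g2 hp)).and (Ioo_mem_nhdsGT hρ)).exists
    obtain ⟨η, hη⟩ := exists_ker vol h3.1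
    exact ⟨η, ker_mono hη h3.2.le, h1 η hη, fun i => h2 i η hη⟩
  choose η hη e1 e2 using hk
  obtain ⟨χ, C, hC, c1, c2, c3, c4, c5⟩ := exists_cutseq E
  have s1 : ∀ k, ContDiff ℝ ∞ (conv vol (η k) u) := fun k => (moll_deriv hu (hη k)).1
  obtain ⟨D0, hD0, a0⟩ := dom_of_summable (f := fun k z => conv vol (η k) u z - u z)
    (fun k => (s1 k).continuous.aestronglyMeasurable.sub hu.1) e1
  have hD : ∀ i, ∃ D : E → ℝ, MemLp D 2 vol ∧ ∀ᵐ x ∂vol,
      Tendsto (fun k => conv vol (η k) (g i) x - g i x) atTop (𝓝 0) ∧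
        ∀ k, ‖conv vol (η k) (g i) x - g i x‖ ≤ D x := fun i =>
    dom_of_summable (f := fun k z => conv vol (η k) (g i) z - g i z) (fun k =>
      (moll_deriv (h i).g2 (hη k)).1.continuous.aestronglyMeasurable.sub (h i).g2.1) (e2 · i)
  choose D hD a using hD
  have fd : ∀ k x i, fderiv ℝ (fun x => χ k x • conv vol (η k) u x) x (v i) =
      χ k x • conv vol (η k) (g i) x + fderiv ℝ (χ k) x (v i) • conv vol (η k) u x := by
    intro k x i
    rw [fderiv_fun_smul ((c1 k).differentiable (by simp) x) ((s1 k).differentiable (by simp) x)]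
    simp [moll_weak hu (h i).wd (hη k)]
  refine ⟨fun k x => χ k x • conv vol (η k) u x, fun x => (‖u x‖ + D0 x) +
    ∑ i, ((‖g i x‖ + D i x) + (C * ‖v i‖) * (‖u x‖ + D0 x)), fun k => (c1 k).smul (s1 k),
    fun k => (c2 k).smul_right, ?_, ?_, fun S h1 h2 h3 h4 k x => ?_, fun k x hx => ?_⟩
  · exact (hu.norm.add hD0).add (memLp_finset_sum _ fun i _ =>
      ((h i).g2.norm.add (hD i)).add ((hu.norm.add hD0).const_mul _))
  · filter_upwards [a0, ae_all_iff.2 a] with x h0 h1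
    have ev : ∀ᶠ k : ℕ in atTop, χ k x = 1 ∧ fderiv ℝ (χ k) x = 0 := by
      filter_upwards [tendsto_natCast_atTop_atTop.eventually_ge_atTop ‖x‖] with k hk
      exact c5 k x (by linarith)
    have b0 : ∀ k, ‖conv vol (η k) u x‖ ≤ ‖u x‖ + D0 x := fun k =>
      (norm_le_norm_add_norm_sub' _ (u x)).trans (by gcongr; exact h0.2 k)
    have b1 : ∀ i k, ‖conv vol (η k) (g i) x‖ ≤ ‖g i x‖ + D i x := fun i k =>
      (norm_le_norm_add_norm_sub' _ (g i x)).trans (by gcongr; exact (h1 i).2 k)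
    have p0 : 0 ≤ ‖u x‖ + D0 x := (norm_nonneg _).trans (b0 0)
    have p1 : ∀ i, 0 ≤ (‖g i x‖ + D i x) + (C * ‖v i‖) * (‖u x‖ + D0 x) := fun i =>
      add_nonneg ((norm_nonneg _).trans (b1 i 0)) (by positivity)
    have nc : ∀ k (y : V), ‖χ k x • y‖ ≤ ‖y‖ := fun k y => by
      rw [norm_smul, Real.norm_of_nonneg (c3 k x).1]
      exact mul_le_of_le_one_left (norm_nonneg _) (c3 k x).2
    refine ⟨⟨?_, fun k => ?_⟩, fun i => ⟨?_, fun k => ?_⟩⟩
    · refine (tendsto_sub_nhds_zero_iff.1 h0.1).congr' ?_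
      filter_upwards [ev] with k hk
      simp [hk.1]
    · exact ((nc k _).trans (b0 k)).trans
        (le_add_of_nonneg_right (Finset.sum_nonneg fun i _ => p1 i))
    · refine (tendsto_sub_nhds_zero_iff.1 (h1 i).1).congr' ?_
      filter_upwards [ev] with k hk
      simp [fd, hk.1, hk.2]
    · rw [fd]
      refine (norm_add_le _ _).trans (le_add_of_nonneg_of_le p0 (le_trans ?_
        (Finset.single_le_sum (fun i _ => p1 i) (Finset.mem_univ i))))
      refine add_le_add ((nc k _).trans (b1 i k)) ?_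
      rw [norm_smul]
      refine mul_le_mul (((fderiv ℝ (χ k) x).le_opNorm _).trans ?_) (b0 k) (norm_nonneg _)
        (by positivity)
      gcongr
      exact (c4 k x).trans (div_le_self hC (by simp))
  · exact h2.smul_mem_of_zero_mem h3
      (conv_mem (hu.locallyIntegrable (by norm_num)) (hη k) h1 h2 h4 x) (c3 k x)
  · simp [conv_zero (hη k) hx]

end

end Vale.Agent.Lib.H1
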