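import Vale.Agent.P349.HMoll

/-! Weak directional derivatives of vector valued functions: definitions and algebra. -/

namespace Vale.Agent.Lib.H1

open MeasureTheory Set Filter Topology
open scoped ENNReal ContDiff

noncomputable section

variable {E V W : Type*} [NormedAddCommGroup E] [NormedSpace ℝ E] [FiniteDimensional ℝ E]
  [MeasurableSpace E] [BorelSpace E] {vol : Measure E} [vol.IsAddHaarMeasure]
  [NormedAddCommGroup V] [NormedSpace ℝ V] [NormedAddCommGroup W] [NormedSpace ℝ W]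

/-- `g` is the weak derivative of `u` in the direction `v`. -/
def WD (vol : Measure E) (u g : E → V) (v : E) : Prop :=
  ∀ φ : E → ℝ, ContDiff ℝ ∞ φ → HasCompactSupport φ →
    ∫ x, fderiv ℝ φ x v • u x ∂vol = -∫ x, φ x • g x ∂vol

/-- Locally square integrable. -/
def L2loc (vol : Measure E) (u : E → V) : Prop :=
  ∀ K : Set E, IsCompact K → MemLp u 2 (vol.restrict K)

/-- `u` and its weak derivative `g` in the direction `v` are locally square integrable. -/
structure Hloc (vol : Measure E) (u g : E → V) (v : E) : Prop where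
  u2 : L2loc vol u
  g2 : L2loc vol g
  wd : WD vol u g v

/-- `u` and its weak derivative `g` in the direction `v` are square integrable. -/
structure Hg (vol : Measure E) (u g : E → V) (v : E) : Prop where
  u2 : MemLp u 2 vol
  g2 : MemLp g 2 vol
  wd : WD vol u g v

variable {u g w h : E → V} {v : E}

section loc

omit [NormedSpace ℝ V]

omit [NormedSpace ℝ E] [FiniteDimensional ℝ E] [BorelSpace E] [vol.IsAddHaarMeasure] in
theorem l2loc_of_memLp (hu : MemLp u 2 vol) : L2loc vol u := fun _ _ => hu.restrict _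

theorem L2loc.locInt (hu : L2loc vol u) : LocallyIntegrable u vol := by
  have : ProperSpace E := FiniteDimensional.proper ℝ E
  refine (locallyIntegrable_iff).2 fun K hK => ?_
  have : IsFiniteMeasure (vol.restrict K) := isFiniteMeasure_restrict.2 hK.measure_lt_top.ne
  exact (hu K hK).integrable (by norm_num)

theorem L2loc.aesm (hu : L2loc vol u) : AEStronglyMeasurable u vol := by
  have : ProperSpace E := FiniteDimensional.proper ℝ E
  exact hu.locInt.aestronglyMeasurable

theorem l2loc_of_bdd (hm : AEStronglyMeasurable u vol)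
    (hb : ∀ K : Set E, IsCompact K → ∃ C, ∀ᵐ x ∂vol, x ∈ K → ‖u x‖ ≤ C) : L2loc vol u := by
  intro K hK
  obtain ⟨C, hC⟩ := hb K hK
  have : IsFiniteMeasure (vol.restrict K) := isFiniteMeasure_restrict.2 hK.measure_lt_top.ne
  exact MemLp.of_bound hm.restrict C ((ae_restrict_iff' hK.measurableSet).2 hC)

theorem l2loc_of_continuous (hu : Continuous u) : L2loc vol u := by
  have : ProperSpace E := FiniteDimensional.proper ℝ E
  refine l2loc_of_bdd hu.aestronglyMeasurable fun K hK => ?_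
  obtain ⟨C, hC⟩ := hK.exists_bound_of_continuousOn hu.continuousOn
  exact ⟨C, ae_of_all _ hC⟩

omit [NormedSpace ℝ E] [FiniteDimensional ℝ E] [BorelSpace E] [vol.IsAddHaarMeasure] in
theorem L2loc.add (hu : L2loc vol u) (hw : L2loc vol w) : L2loc vol fun x => u x + w x :=
  fun K hK => (hu K hK).add (hw K hK)

omit [NormedSpace ℝ E] [FiniteDimensional ℝ E] [BorelSpace E] [vol.IsAddHaarMeasure] in
theorem L2loc.neg (hu : L2loc vol u) : L2loc vol fun x => -u x := fun K hK => (hu K hK).neg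

omit [NormedSpace ℝ E] [FiniteDimensional ℝ E] [BorelSpace E] [vol.IsAddHaarMeasure] in
theorem L2loc.sub (hu : L2loc vol u) (hw : L2loc vol w) : L2loc vol fun x => u x - w x :=
  fun K hK => (hu K hK).sub (hw K hK)

omit [NormedSpace ℝ E] [FiniteDimensional ℝ E] [BorelSpace E] [vol.IsAddHaarMeasure] in
theorem L2loc.norm (hu : L2loc vol u) : L2loc vol fun x => ‖u x‖ := fun K hK => (hu K hK).norm

omit [NormedSpace ℝ E] [FiniteDimensional ℝ E] [BorelSpace E] [vol.IsAddHaarMeasure] in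
theorem L2loc.congr (hu : L2loc vol u) (h : u =ᵐ[vol] w) : L2loc vol w :=
  fun K hK => (hu K hK).ae_eq (ae_restrict_of_ae h)

omit [NormedSpace ℝ E] [FiniteDimensional ℝ E] [BorelSpace E] [vol.IsAddHaarMeasure]
  [NormedSpace ℝ W] in
theorem L2loc.of_le {f : E → W} (hu : L2loc vol u) (hm : AEStronglyMeasurable f vol) {c : ℝ}
    (hb : ∀ᵐ x ∂vol, ‖f x‖ ≤ c * ‖u x‖) : L2loc vol f :=
  fun K hK => (hu K hK).of_le_mul hm.restrict (ae_restrict_of_ae hb)

omit [NormedSpace ℝ E] [FiniteDimensional ℝ E] [vol.IsAddHaarMeasure] [NormedSpace ℝ W] in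
/-- Comparison with a constant depending on the compact set. -/
theorem L2loc.of_le_loc {f : E → W} (hu : L2loc vol u) (hm : AEStronglyMeasurable f vol)
    (hb : ∀ K : Set E, IsCompact K → ∃ c : ℝ, ∀ᵐ x ∂vol, x ∈ K → ‖f x‖ ≤ c * ‖u x‖) :
    L2loc vol f := by
  intro K hK
  obtain ⟨c, hc⟩ := hb K hK
  exact (hu K hK).of_le_mul hm.restrict ((ae_restrict_iff' hK.measurableSet).2 hc)

omit [NormedSpace ℝ E] [FiniteDimensional ℝ E] [vol.IsAddHaarMeasure] in
theorem L2loc.memLp (hu : L2loc vol u) {K : Set E} (hK : IsCompact K)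
    (h0 : ∀ᵐ x ∂vol, x ∉ K → u x = 0) : MemLp u 2 vol := by
  have h1 := (memLp_indicator_iff_restrict hK.measurableSet).2 (hu K hK)
  refine h1.ae_eq ?_
  filter_upwards [h0] with x hx
  by_cases hxK : x ∈ K
  · simp [hxK]
  · simp [hxK, hx hxK]

end loc

theorem L2loc.smul (hu : L2loc vol u) {φ : E → ℝ} (hφ : Continuous φ) :
    L2loc vol fun x => φ x • u x := by
  refine hu.of_le_loc (hφ.aestronglyMeasurable.smul hu.aesm) fun K hK => ?_
  obtain ⟨C, hC⟩ := hK.exists_bound_of_continuousOn hφ.continuousOn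
  refine ⟨C, ae_of_all _ fun x hx => ?_⟩
  rw [norm_smul]
  exact mul_le_mul_of_nonneg_right (hC x hx) (norm_nonneg _)

theorem L2loc.cut (hu : L2loc vol u) {φ : E → ℝ} (hφ : Continuous φ)
    (hc : HasCompactSupport φ) : MemLp (fun x => φ x • u x) 2 vol :=
  (hu.smul hφ).memLp hc (ae_of_all _ fun x hx => by simp [image_eq_zero_of_notMem_tsupport hx])

theorem L2loc.clm (hu : L2loc vol u) (L : V →L[ℝ] W) : L2loc vol fun x => L (u x) :=
  hu.of_le (L.continuous.comp_aestronglyMeasurable hu.aesm) (ae_of_all _ fun _ => L.le_opNorm _)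

omit [NormedSpace ℝ V] [NormedSpace ℝ W] in
theorem L2loc.pair {f : E → W} (hu : L2loc vol u) (hf : L2loc vol f) :
    L2loc vol fun x => (u x, f x) := by
  refine (hu.norm.add hf.norm).of_le (hu.aesm.prodMk hf.aesm) (c := 1) (ae_of_all _ fun x => ?_)
  rw [Prod.norm_def, one_mul, Real.norm_of_nonneg (by positivity)]
  exact max_le (by simp) (by simp)

omit [NormedSpace ℝ E] [FiniteDimensional ℝ E] [vol.IsAddHaarMeasure] in
theorem int_test (hu : LocallyIntegrable u vol) {φ : E → ℝ} (hφ : Continuous φ)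
    (hc : HasCompactSupport φ) : Integrable (fun x => φ x • u x) vol :=
  hu.integrable_smul_left_of_hasCompactSupport hφ hc

omit [FiniteDimensional ℝ E] [MeasurableSpace E] [BorelSpace E] in
theorem fd_cont {F : Type*} [NormedAddCommGroup F] [NormedSpace ℝ F] {φ : E → F}
    (hφ : ContDiff ℝ 1 φ) (v : E) : Continuous fun x => fderiv ℝ φ x v :=
  (hφ.continuous_fderiv (by simp)).clm_apply continuous_const

omit [FiniteDimensional ℝ E] [MeasurableSpace E] [BorelSpace E] in
theorem fd_cpt {F : Type*} [NormedAddCommGroup F] [NormedSpace ℝ F] {φ : E → F}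
    (hc : HasCompactSupport φ) (v : E) : HasCompactSupport fun x => fderiv ℝ φ x v :=
  hc.fderiv_apply (𝕜 := ℝ) v

omit [FiniteDimensional ℝ E] [MeasurableSpace E] [BorelSpace E] in
theorem one_le_inf {F : Type*} [NormedAddCommGroup F] [NormedSpace ℝ F] {φ : E → F}
    (hφ : ContDiff ℝ ∞ φ) : ContDiff ℝ 1 φ := hφ.of_le (by simp)

omit [FiniteDimensional ℝ E] [vol.IsAddHaarMeasure] in
theorem int_test' (hu : LocallyIntegrable u vol) {φ : E → ℝ} (hφ : ContDiff ℝ ∞ φ)
    (hc : HasCompactSupport φ) (v : E) : Integrable (fun x => fderiv ℝ φ x v • u x) vol :=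
  int_test hu (fd_cont (one_le_inf hφ) v) (fd_cpt hc v)

section wd

omit [FiniteDimensional ℝ E] [BorelSpace E] [vol.IsAddHaarMeasure] in
theorem WD.congr (hw : WD vol u g v) (h1 : u =ᵐ[vol] w) (h2 : g =ᵐ[vol] h) : WD vol w h v := by
  intro φ hφ hc
  have e1 : ∫ x, fderiv ℝ φ x v • w x ∂vol = ∫ x, fderiv ℝ φ x v • u x ∂vol :=
    integral_congr_ae (by filter_upwards [h1] with x hx; rw [hx])
  have e2 : ∫ x, φ x • h x ∂vol = ∫ x, φ x • g x ∂vol :=
    integral_congr_ae (by filter_upwards [h2] with x hx; rw [hx])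
  rw [e1, e2, hw φ hφ hc]

omit [FiniteDimensional ℝ E] [vol.IsAddHaarMeasure] in
theorem WD.add (h1 : WD vol u g v) (h2 : WD vol w h v) (hu : LocallyIntegrable u vol)
    (hg : LocallyIntegrable g vol) (hw : LocallyIntegrable w vol)
    (hh : LocallyIntegrable h vol) : WD vol (fun x => u x + w x) (fun x => g x + h x) v := by
  intro φ hφ hc
  simp only [smul_add]
  rw [integral_add (int_test' hu hφ hc v) (int_test' hw hφ hc v),
    integral_add (int_test hg hφ.continuous hc) (int_test hh hφ.continuous hc), h1 φ hφ hc,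
    h2 φ hφ hc, neg_add]

omit [FiniteDimensional ℝ E] [vol.IsAddHaarMeasure] in
theorem WD.clm [CompleteSpace V] [CompleteSpace W] (h1 : WD vol u g v)
    (hu : LocallyIntegrable u vol) (hg : LocallyIntegrable g vol) (L : V →L[ℝ] W) :
    WD vol (fun x => L (u x)) (fun x => L (g x)) v := by
  intro φ hφ hc
  simp only [← map_smul]
  rw [L.integral_comp_comm (int_test' hu hφ hc v),
    L.integral_comp_comm (int_test hg hφ.continuous hc), h1 φ hφ hc, map_neg]

omit [FiniteDimensional ℝ E] [vol.IsAddHaarMeasure] in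
theorem WD.smul (h1 : WD vol u g v) (hu : LocallyIntegrable u vol)
    (hg : LocallyIntegrable g vol) {χ : E → ℝ} (hχ : ContDiff ℝ ∞ χ) :
    WD vol (fun x => χ x • u x) (fun x => χ x • g x + fderiv ℝ χ x v • u x) v := by
  intro φ hφ hc
  have h2 := h1 (fun x => φ x * χ x) (hφ.mul hχ) hc.mul_right
  have e : ∀ x, fderiv ℝ (fun x => φ x * χ x) x v = fderiv ℝ φ x v * χ x + φ x * fderiv ℝ χ x v := by
    intro x
    rw [fderiv_fun_mul (hφ.differentiable (by simp) x) (hχ.differentiable (by simp) x)]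
    simp only [ContinuousLinearMap.add_apply, ContinuousLinearMap.smul_apply, smul_eq_mul]
    ring
  have i1 : Integrable (fun x => (fderiv ℝ φ x v * χ x) • u x) vol :=
    int_test hu ((fd_cont (one_le_inf hφ) v).mul hχ.continuous) (fd_cpt hc v).mul_right
  have i2 : Integrable (fun x => (φ x * fderiv ℝ χ x v) • u x) vol :=
    int_test hu (hφ.continuous.mul (fd_cont (one_le_inf hχ) v)) hc.mul_right
  have i3 : Integrable (fun x => (φ x * χ x) • g x) vol :=
    int_test hg (hφ.continuous.mul hχ.continuous) hc.mul_right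
  simp only [e, add_smul] at h2
  simp only [smul_add, smul_smul]
  rw [integral_add i1 i2] at h2
  rw [integral_add i3 i2, neg_add, ← h2]
  abel

theorem WD.unique [CompleteSpace V] (h1 : WD vol u g v) (h2 : WD vol u h v)
    (hg : LocallyIntegrable g vol) (hh : LocallyIntegrable h vol) : g =ᵐ[vol] h :=
  ae_eq_of_integral_contDiff_smul_eq hg hh fun φ hφ hc =>
    neg_injective ((h1 φ hφ hc).symm.trans (h2 φ hφ hc))

theorem wd_of_contDiff (hu : ContDiff ℝ 1 u) (v : E) : WD vol u (fun x => fderiv ℝ u x v) v := by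
  intro φ hφ hc
  have l1 : LocallyIntegrable u vol := (l2loc_of_continuous hu.continuous).locInt
  have l2 : LocallyIntegrable (fun x => fderiv ℝ u x v) vol :=
    (l2loc_of_continuous (fd_cont hu v)).locInt
  rw [integral_smul_fderiv_eq_neg_fderiv_smul_of_integrable (int_test' l1 hφ hc v)
    (int_test l2 hφ.continuous hc) (int_test l1 hφ.continuous hc)
    (fun x _ => hφ.differentiable (by simp) x) (fun x _ => hu.differentiable (by simp) x), neg_neg]

omit [FiniteDimensional ℝ E] [vol.IsAddHaarMeasure] in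
/-- Linearity in the direction. -/
theorem WD.add_dir {v' : E} (h1 : WD vol u g v) (h2 : WD vol u h v') (hu : LocallyIntegrable u vol)
    (hg : LocallyIntegrable g vol) (hh : LocallyIntegrable h vol) :
    WD vol u (fun x => g x + h x) (v + v') := by
  intro φ hφ hc
  simp only [map_add, add_smul, smul_add]
  rw [integral_add (int_test' hu hφ hc v) (int_test' hu hφ hc v'),
    integral_add (int_test hg hφ.continuous hc) (int_test hh hφ.continuous hc), h1 φ hφ hc,
    h2 φ hφ hc, neg_add]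

omit [FiniteDimensional ℝ E] [BorelSpace E] [vol.IsAddHaarMeasure] in
theorem WD.smul_dir (h1 : WD vol u g v) (c : ℝ) : WD vol u (fun x => c • g x) (c • v) := by
  intro φ hφ hc
  have e1 : ∀ x, fderiv ℝ φ x (c • v) • u x = c • (fderiv ℝ φ x v • u x) := fun x => by
    rw [map_smul, smul_assoc]
  have e2 : ∀ x, φ x • c • g x = c • (φ x • g x) := fun x => smul_comm _ _ _
  simp only [e1, e2, integral_smul, h1 φ hφ hc, smul_neg]

end wd

section H

omit [FiniteDimensional ℝ E] [BorelSpace E] [vol.IsAddHaarMeasure] in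
theorem Hg.loc (h1 : Hg vol u g v) : Hloc vol u g v :=
  ⟨l2loc_of_memLp h1.u2, l2loc_of_memLp h1.g2, h1.wd⟩

omit [FiniteDimensional ℝ E] [BorelSpace E] [vol.IsAddHaarMeasure] in
theorem Hloc.glob (h1 : Hloc vol u g v) (hu : MemLp u 2 vol) (hg : MemLp g 2 vol) :
    Hg vol u g v := ⟨hu, hg, h1.wd⟩

omit [FiniteDimensional ℝ E] [BorelSpace E] [vol.IsAddHaarMeasure] in
theorem Hloc.congr (h1 : Hloc vol u g v) (e1 : u =ᵐ[vol] w) (e2 : g =ᵐ[vol] h) :
    Hloc vol w h v := ⟨h1.u2.congr e1, h1.g2.congr e2, h1.wd.congr e1 e2⟩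

omit [FiniteDimensional ℝ E] [BorelSpace E] [vol.IsAddHaarMeasure] in
theorem Hg.congr (h1 : Hg vol u g v) (e1 : u =ᵐ[vol] w) (e2 : g =ᵐ[vol] h) :
    Hg vol w h v := ⟨h1.u2.ae_eq e1, h1.g2.ae_eq e2, h1.wd.congr e1 e2⟩

theorem Hloc.add (h1 : Hloc vol u g v) (h2 : Hloc vol w h v) :
    Hloc vol (fun x => u x + w x) (fun x => g x + h x) v :=
  ⟨h1.u2.add h2.u2, h1.g2.add h2.g2,
    h1.wd.add h2.wd h1.u2.locInt h1.g2.locInt h2.u2.locInt h2.g2.locInt⟩

theorem Hloc.clm [CompleteSpace V] [CompleteSpace W] (h1 : Hloc vol u g v) (L : V →L[ℝ] W) :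
    Hloc vol (fun x => L (u x)) (fun x => L (g x)) v :=
  ⟨h1.u2.clm L, h1.g2.clm L, h1.wd.clm h1.u2.locInt h1.g2.locInt L⟩

theorem Hloc.smul (h1 : Hloc vol u g v) {χ : E → ℝ} (hχ : ContDiff ℝ ∞ χ) :
    Hloc vol (fun x => χ x • u x) (fun x => χ x • g x + fderiv ℝ χ x v • u x) v :=
  ⟨h1.u2.smul hχ.continuous,
    (h1.g2.smul hχ.continuous).add (h1.u2.smul (fd_cont (one_le_inf hχ) v)),
    h1.wd.smul h1.u2.locInt h1.g2.locInt hχ⟩

theorem Hloc.const_smul (h1 : Hloc vol u g v) (c : ℝ) :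
    Hloc vol (fun x => c • u x) (fun x => c • g x) v := by
  simpa using h1.smul (χ := fun _ => c) contDiff_const

theorem Hloc.neg (h1 : Hloc vol u g v) : Hloc vol (fun x => -u x) (fun x => -g x) v := by
  simpa using h1.const_smul (-1)

theorem Hloc.sub (h1 : Hloc vol u g v) (h2 : Hloc vol w h v) :
    Hloc vol (fun x => u x - w x) (fun x => g x - h x) v := by
  simpa only [sub_eq_add_neg] using h1.add h2.neg

theorem hloc_of_contDiff (hu : ContDiff ℝ 1 u) (v : E) :
    Hloc vol u (fun x => fderiv ℝ u x v) v :=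
  ⟨l2loc_of_continuous hu.continuous, l2loc_of_continuous (fd_cont hu v), wd_of_contDiff hu v⟩

theorem hloc_const (c : V) (v : E) : Hloc vol (fun _ => c) (fun _ => 0) v := by
  simpa using hloc_of_contDiff (vol := vol) (u := fun _ => c) contDiff_const v

theorem hloc_id (v : E) : Hloc vol (fun x : E => x) (fun _ => v) v := by
  simpa using hloc_of_contDiff (vol := vol) (u := fun x : E => x) contDiff_id v

theorem hloc_sum {ι : Type*} (s : Finset ι) {u g : ι → E → V}
    (h1 : ∀ i ∈ s, Hloc vol (u i) (g i) v) :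
    Hloc vol (fun x => ∑ i ∈ s, u i x) (fun x => ∑ i ∈ s, g i x) v := by
  classical
  induction s using Finset.induction_on with
  | empty => simpa using hloc_const (vol := vol) (0 : V) v
  | insert a s ha ih =>
    simp only [Finset.sum_insert ha]
    exact (h1 a (by simp)).add (ih fun i hi => h1 i (by simp [hi]))

theorem Hloc.pair [CompleteSpace V] [CompleteSpace W] {f k : E → W} (h1 : Hloc vol u g v)
    (h2 : Hloc vol f k v) : Hloc vol (fun x => (u x, f x)) (fun x => (g x, k x)) v := by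
  simpa using (h1.clm (ContinuousLinearMap.inl ℝ V W)).add (h2.clm (ContinuousLinearMap.inr ℝ V W))

theorem Hloc.cut (h1 : Hloc vol u g v) {χ : E → ℝ} (hχ : ContDiff ℝ ∞ χ)
    (hc : HasCompactSupport χ) :
    Hg vol (fun x => χ x • u x) (fun x => χ x • g x + fderiv ℝ χ x v • u x) v :=
  (h1.smul hχ).glob (h1.u2.cut hχ.continuous hc)
    ((h1.g2.cut hχ.continuous hc).add (h1.u2.cut (fd_cont (one_le_inf hχ) v) (fd_cpt hc v)))

theorem Hloc.unique [CompleteSpace V] (h1 : Hloc vol u g v) (h2 : Hloc vol u h v) :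
    g =ᵐ[vol] h := h1.wd.unique h2.wd h1.g2.locInt h2.g2.locInt

theorem Hg.add (h1 : Hg vol u g v) (h2 : Hg vol w h v) :
    Hg vol (fun x => u x + w x) (fun x => g x + h x) v :=
  (h1.loc.add h2.loc).glob (h1.u2.add h2.u2) (h1.g2.add h2.g2)

theorem Hg.sub (h1 : Hg vol u g v) (h2 : Hg vol w h v) :
    Hg vol (fun x => u x - w x) (fun x => g x - h x) v :=
  (h1.loc.sub h2.loc).glob (h1.u2.sub h2.u2) (h1.g2.sub h2.g2)

theorem Hg.neg (h1 : Hg vol u g v) : Hg vol (fun x => -u x) (fun x => -g x) v :=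
  h1.loc.neg.glob h1.u2.neg h1.g2.neg

theorem Hg.const_smul (h1 : Hg vol u g v) (c : ℝ) :
    Hg vol (fun x => c • u x) (fun x => c • g x) v :=
  (h1.loc.const_smul c).glob (h1.u2.const_smul c) (h1.g2.const_smul c)

theorem Hg.clm [CompleteSpace V] [CompleteSpace W] (h1 : Hg vol u g v) (L : V →L[ℝ] W) :
    Hg vol (fun x => L (u x)) (fun x => L (g x)) v :=
  (h1.loc.clm L).glob (L.comp_memLp' h1.u2) (L.comp_memLp' h1.g2)

theorem hg_of_contDiff (hu : ContDiff ℝ 1 u) (hc : HasCompactSupport u) (v : E) :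
    Hg vol u (fun x => fderiv ℝ u x v) v :=
  (hloc_of_contDiff hu v).glob (hu.continuous.memLp_of_hasCompactSupport hc)
    ((fd_cont hu v).memLp_of_hasCompactSupport (fd_cpt hc v))

theorem hg_sum {ι : Type*} (s : Finset ι) {u g : ι → E → V}
    (h1 : ∀ i ∈ s, Hg vol (u i) (g i) v) :
    Hg vol (fun x => ∑ i ∈ s, u i x) (fun x => ∑ i ∈ s, g i x) v :=
  (hloc_sum s fun i hi => (h1 i hi).loc).glob (memLp_finset_sum s fun i hi => (h1 i hi).u2)
    (memLp_finset_sum s fun i hi => (h1 i hi).g2)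

theorem Hg.pair [CompleteSpace V] [CompleteSpace W] {f k : E → W} (h1 : Hg vol u g v)
    (h2 : Hg vol f k v) : Hg vol (fun x => (u x, f x)) (fun x => (g x, k x)) v := by
  simpa using (h1.clm (ContinuousLinearMap.inl ℝ V W)).add (h2.clm (ContinuousLinearMap.inr ℝ V W))

/-- A smooth cutoff equal to one near a compact set. -/
theorem exists_cut {K : Set E} (hK : IsCompact K) : ∃ χ : E → ℝ, ContDiff ℝ ∞ χ ∧
    HasCompactSupport χ ∧ (∀ x, 0 ≤ χ x ∧ χ x ≤ 1) ∧
      ∀ x ∈ K, χ x = 1 ∧ fderiv ℝ χ x = 0 := by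
  obtain ⟨R, hR⟩ := hK.isBounded.subset_ball_lt 0 (0 : E)
  let b : ContDiffBump (0 : E) := ⟨R, R + 1, hR.1, by linarith⟩
  refine ⟨b, b.contDiff, b.hasCompactSupport, fun x => ⟨b.nonneg, b.le_one⟩, fun x hx => ?_⟩
  have h1 : (b : E → ℝ) =ᶠ[𝓝 x] 1 := b.eventuallyEq_one_of_mem_ball (hR.2 hx)
  exact ⟨h1.eq_of_nhds, by rw [h1.fderiv_eq]; exact fderiv_const_apply _⟩

end H

end

end Vale.Agent.Lib.H1
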