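import Vale.Agent.Lib.H1.Approx

/-! Chain rules, product rules and integration by parts for weak derivatives. -/

namespace Vale.Agent.Lib.H1

open MeasureTheory Set Filter Topology Vale.Agent.P349H
open scoped ENNReal ContDiff

noncomputable section

variable {E V W X : Type*} [NormedAddCommGroup E] [NormedSpace ℝ E] [FiniteDimensional ℝ E]
  [MeasurableSpace E] [BorelSpace E] {vol : Measure E} [vol.IsAddHaarMeasure]
  [NormedAddCommGroup V] [NormedSpace ℝ V] [NormedAddCommGroup W] [NormedSpace ℝ W]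
  [NormedAddCommGroup X] [NormedSpace ℝ X]

variable {u g : E → V} {v : E}

omit [FiniteDimensional ℝ E] [BorelSpace E] [vol.IsAddHaarMeasure] in
theorem wd_of_local (h : ∀ K : Set E, IsCompact K → ∃ U G : E → V, WD vol U G v ∧
    ∀ᵐ x ∂vol, x ∈ K → U x = u x ∧ G x = g x) : WD vol u g v := by
  intro φ hφ hc
  obtain ⟨U, G, h1, h2⟩ := h _ hc
  have e1 : ∫ x, fderiv ℝ φ x v • u x ∂vol = ∫ x, fderiv ℝ φ x v • U x ∂vol := by
    refine integral_congr_ae ?_
    filter_upwards [h2] with x hx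
    by_cases hK : x ∈ tsupport φ
    · rw [(hx hK).1]
    · have : fderiv ℝ φ x = 0 := by
        by_contra h0
        exact hK (support_fderiv_subset ℝ h0)
      simp [this]
  have e2 : ∫ x, φ x • g x ∂vol = ∫ x, φ x • G x ∂vol := by
    refine integral_congr_ae ?_
    filter_upwards [h2] with x hx
    by_cases hK : x ∈ tsupport φ
    · rw [(hx hK).2]
    · simp [image_eq_zero_of_notMem_tsupport hK]
  rw [e1, e2, h1 φ hφ hc]

omit [NormedSpace ℝ V] [vol.IsAddHaarMeasure] in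
theorem aesm_of_local (h : ∀ K : Set E, IsCompact K → ∃ U : E → V, AEStronglyMeasurable U vol ∧
    ∀ᵐ x ∂vol, x ∈ K → U x = u x) : AEStronglyMeasurable u vol := by
  have : ProperSpace E := FiniteDimensional.proper ℝ E
  rw [← Measure.restrict_univ (μ := vol), ← Metric.iUnion_closedBall_nat (0 : E),
    aestronglyMeasurable_iUnion_iff]
  intro n
  obtain ⟨U, h1, h2⟩ := h _ (isCompact_closedBall (0 : E) n)
  exact h1.restrict.congr ((ae_restrict_iff' measurableSet_closedBall).2 h2)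

omit [FiniteDimensional ℝ E] [vol.IsAddHaarMeasure] in
theorem test_lim {U : ℕ → E → V} {D : E → ℝ} (mU : ∀ k, AEStronglyMeasurable (U k) vol)
    (hD : LocallyIntegrable D vol)
    (hb : ∀ᵐ x ∂vol, Tendsto (fun k => U k x) atTop (𝓝 (u x)) ∧ ∀ k, ‖U k x‖ ≤ D x)
    {φ : E → ℝ} (hφ : Continuous φ) (hc : HasCompactSupport φ) :
    Tendsto (fun k => ∫ x, φ x • U k x ∂vol) atTop (𝓝 (∫ x, φ x • u x ∂vol)) := by
  refine tendsto_integral_of_dominated_convergence (fun x => ‖φ x‖ • D x)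
    (fun k => hφ.aestronglyMeasurable.smul (mU k)) (int_test hD hφ.norm hc.norm) (fun k => ?_) ?_
  · filter_upwards [hb] with x hx
    rw [norm_smul, smul_eq_mul]
    exact mul_le_mul_of_nonneg_left (hx.2 k) (norm_nonneg _)
  · filter_upwards [hb] with x hx
    exact hx.1.const_smul _

omit [FiniteDimensional ℝ E] [BorelSpace E] [vol.IsAddHaarMeasure] in
/-- Weak derivatives pass to distributional limits. -/
theorem wd_of_weak {ι : Type*} {l : Filter ι} [l.NeBot] {U G : ι → E → V}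
    (h : ∀ᶠ k in l, WD vol (U k) (G k) v)
    (hU : ∀ φ : E → ℝ, Continuous φ → HasCompactSupport φ →
      Tendsto (fun k => ∫ x, φ x • U k x ∂vol) l (𝓝 (∫ x, φ x • u x ∂vol)))
    (hG : ∀ φ : E → ℝ, Continuous φ → HasCompactSupport φ →
      Tendsto (fun k => ∫ x, φ x • G k x ∂vol) l (𝓝 (∫ x, φ x • g x ∂vol))) : WD vol u g v := by
  intro φ hφ hc
  refine tendsto_nhds_unique ((hU _ (fd_cont (one_le_inf hφ) v) (fd_cpt hc v)).congr' ?_)
    (hG φ hφ.continuous hc).neg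
  filter_upwards [h] with k hk
  exact hk φ hφ hc

omit [FiniteDimensional ℝ E] [vol.IsAddHaarMeasure] in
/-- Weak derivatives pass to dominated almost everywhere limits. -/
theorem wd_of_lim {U G : ℕ → E → V} {D : E → ℝ} (h : ∀ k, WD vol (U k) (G k) v)
    (mU : ∀ k, AEStronglyMeasurable (U k) vol) (mG : ∀ k, AEStronglyMeasurable (G k) vol)
    (hD : LocallyIntegrable D vol)
    (hU : ∀ᵐ x ∂vol, Tendsto (fun k => U k x) atTop (𝓝 (u x)) ∧ ∀ k, ‖U k x‖ ≤ D x)
    (hG : ∀ᵐ x ∂vol, Tendsto (fun k => G k x) atTop (𝓝 (g x)) ∧ ∀ k, ‖G k x‖ ≤ D x) :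
    WD vol u g v :=
  wd_of_weak (Eventually.of_forall h) (fun _ h1 h2 => test_lim mU hD hU h1 h2)
    (fun _ h1 h2 => test_lim mG hD hG h1 h2)

omit [NormedSpace ℝ V] in
theorem L2loc.mul_locInt {a b : E → ℝ} (ha : L2loc vol a) (hb : L2loc vol b) :
    LocallyIntegrable (fun x => a x * b x) vol := by
  have : ProperSpace E := FiniteDimensional.proper ℝ E
  exact (locallyIntegrable_iff).2 fun K hK => (ha K hK).integrable_mul (hb K hK)

theorem norm_le_on {F : V → W} {C : Set V} (hv : Convex ℝ C) {L : ℝ} (hL : 0 ≤ L)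
    (hF : ∀ y ∈ C, ContDiffAt ℝ 1 F y ∧ ‖fderiv ℝ F y‖ ≤ L * (1 + ‖y‖)) {c y : V} (hc : c ∈ C)
    (hy : y ∈ C) : ‖F y‖ ≤ ‖F c‖ + L * (1 + (‖c‖ + ‖y - c‖)) * ‖y - c‖ := by
  have h1 := (hv.inter (convex_closedBall c ‖y - c‖)).norm_image_sub_le_of_norm_fderiv_le
    (𝕜 := ℝ) (f := F) (C := L * (1 + (‖c‖ + ‖y - c‖)))
    (fun z hz => (hF z hz.1).1.differentiableAt one_ne_zero)
    (fun z hz => (hF z hz.1).2.trans (by
      gcongr
      exact (norm_le_norm_add_norm_sub' z c).trans (by gcongr; exact mem_closedBall_iff_norm.1 hz.2)))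
    ⟨hc, Metric.mem_closedBall_self (norm_nonneg _)⟩ ⟨hy, mem_closedBall_iff_norm.2 le_rfl⟩
  exact (norm_le_norm_add_norm_sub' _ (F c)).trans (by gcongr)

variable [CompleteSpace V]

theorem chain_aux (h : Hg vol u g v) {F : V → W} {C : Set V} {L : ℝ} {c : V} (h1 : IsClosed C)
    (h2 : Convex ℝ C) (h3 : c ∈ C) (h4 : ∀ᵐ x ∂vol, c + u x ∈ C)
    (hF : ∀ y ∈ C, ContDiffAt ℝ 1 F y ∧ ‖fderiv ℝ F y‖ ≤ L * (1 + ‖y‖)) :
    WD vol (fun x => F (c + u x)) (fun x => fderiv ℝ F (c + u x) (g x)) v ∧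
      AEStronglyMeasurable (fun x => F (c + u x)) vol ∧
      AEStronglyMeasurable (fun x => fderiv ℝ F (c + u x) (g x)) vol := by
  have hL : 0 ≤ L := nonneg_of_mul_nonneg_left ((norm_nonneg _).trans (hF c h3).2) (by positivity)
  obtain ⟨w, D, w1, -, hD, w3, w4, -⟩ :=
    approx (v := fun _ : Unit => v) (g := fun _ => g) h.u2 (fun _ => h) one_pos
  have w5 : ∀ k x, c + w k x ∈ C := w4 ((fun y => c + y) ⁻¹' C) (h1.preimage (by fun_prop))
    (h2.translate_preimage_right c) (by simpa using h3) h4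
  have s1 : ∀ k, ContDiff ℝ 1 fun x => F (c + w k x) := fun k => contDiff_iff_contDiffAt.2 fun x =>
    (hF _ (w5 k x)).1.comp x (contDiffAt_const.add (one_le_inf (w1 k)).contDiffAt)
  have e : ∀ k x, fderiv ℝ (fun x => F (c + w k x)) x v =
      fderiv ℝ F (c + w k x) (fderiv ℝ (w k) x v) := fun k x => by
    have := ((hF _ (w5 k x)).1.differentiableAt one_ne_zero).hasFDerivAt.comp x
      (((w1 k).differentiable (by simp) x).hasFDerivAt.const_add c)
    exact congrArg (fun T : E →L[ℝ] W => T v) this.fderiv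
  have t1 : ∀ᵐ x ∂vol, Tendsto (fun k => F (c + w k x)) atTop (𝓝 (F (c + u x))) := by
    filter_upwards [w3, h4] with x hx h5
    exact (hF _ h5).1.continuousAt.tendsto.comp (hx.1.1.const_add c)
  have t2 : ∀ᵐ x ∂vol, Tendsto (fun k => fderiv ℝ (fun x => F (c + w k x)) x v) atTop
      (𝓝 (fderiv ℝ F (c + u x) (g x))) := by
    filter_upwards [w3, h4] with x hx h5
    simp only [e]
    have h6 := ((hF _ h5).1.continuousAt_fderiv (by simp)).tendsto.comp (hx.1.1.const_add c)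
    exact (isBoundedBilinearMap_apply.continuous.tendsto _).comp (h6.prodMk_nhds (hx.2 ()).1)
  have m1 : ∀ k, AEStronglyMeasurable (fun x => F (c + w k x)) vol := fun k =>
    (s1 k).continuous.aestronglyMeasurable
  have m2 : ∀ k, AEStronglyMeasurable (fun x => fderiv ℝ (fun x => F (c + w k x)) x v) vol :=
    fun k => (fd_cont (s1 k) v).aestronglyMeasurable
  refine ⟨wd_of_lim (D := fun x => ‖F c‖ + L * (1 + (‖c‖ + D x)) * D x)
    (fun k => wd_of_contDiff (s1 k) v) m1 m2 ?_ ?_ ?_,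
    aestronglyMeasurable_of_tendsto_ae atTop m1 t1, aestronglyMeasurable_of_tendsto_ae atTop m2 t2⟩
  · have l1 := l2loc_of_memLp hD
    have l2 : L2loc vol fun x => L • ((1 + ‖c‖) + D x) :=
      ((l2loc_of_continuous continuous_const).add l1).smul continuous_const
    have l3 := (locallyIntegrable_const ‖F c‖).add (l2.mul_locInt l1)
    simp only [smul_eq_mul, add_assoc] at l3
    exact l3
  · filter_upwards [w3, t1] with x hx h5
    refine ⟨h5, fun k => (norm_le_on h2 hL hF h3 (w5 k x)).trans ?_⟩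
    have := hx.1.2 k
    have p := (norm_nonneg _).trans this
    rw [add_sub_cancel_left]
    gcongr
  · filter_upwards [w3, t2] with x hx h5
    refine ⟨h5, fun k => ?_⟩
    have b1 := hx.1.2 k
    have p := (norm_nonneg _).trans b1
    rw [e]
    refine le_add_of_nonneg_of_le (norm_nonneg _) ((ContinuousLinearMap.le_opNorm _ _).trans ?_)
    refine mul_le_mul ((hF _ (w5 k x)).2.trans ?_) ((hx.2 ()).2 k) (norm_nonneg _) (by positivity)
    gcongr
    exact (norm_add_le _ _).trans (by gcongr)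

/-- The master chain rule: `F` is `C¹` near closed convex sets containing the local ranges of `u`,
with derivative of at most linear growth. -/
theorem Hloc.wd_chain (h : Hloc vol u g v) {F : V → W}
    (hF : ∀ K : Set E, IsCompact K → ∃ (C : Set V) (L : ℝ), IsClosed C ∧ Convex ℝ C ∧
      C.Nonempty ∧ (∀ᵐ x ∂vol, x ∈ K → u x ∈ C) ∧
      ∀ y ∈ C, ContDiffAt ℝ 1 F y ∧ ‖fderiv ℝ F y‖ ≤ L * (1 + ‖y‖)) :
    WD vol (fun x => F (u x)) (fun x => fderiv ℝ F (u x) (g x)) v ∧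
      AEStronglyMeasurable (fun x => F (u x)) vol ∧
      AEStronglyMeasurable (fun x => fderiv ℝ F (u x) (g x)) vol := by
  have key : ∀ K : Set E, IsCompact K → ∃ U G : E → W, (WD vol U G v ∧
      AEStronglyMeasurable U vol ∧ AEStronglyMeasurable G vol) ∧
      ∀ x ∈ K, U x = F (u x) ∧ G x = fderiv ℝ F (u x) (g x) := by
    intro K hK
    obtain ⟨χ, c1, c2, c3, c4⟩ := exists_cut hK
    obtain ⟨C, L, h1, h2, ⟨c, h3⟩, h4, h5⟩ := hF _ c2
    have h6 := (h.sub (hloc_const c v)).cut c1 c2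
    refine ⟨_, _, chain_aux h6 h1 h2 h3 ?_ h5, fun x hx => ?_⟩
    · filter_upwards [h4] with x hx
      by_cases hK : x ∈ tsupport χ
      · exact h2.add_smul_sub_mem h3 (hx hK) (c3 x)
      · simpa [image_eq_zero_of_notMem_tsupport hK] using h3
    · simp [(c4 x hx).1, (c4 x hx).2]
  refine ⟨wd_of_local fun K hK => ?_, aesm_of_local fun K hK => ?_, aesm_of_local fun K hK => ?_⟩
  · obtain ⟨U, G, h1, h2⟩ := key K hK
    exact ⟨U, G, h1.1, ae_of_all _ h2⟩
  · obtain ⟨U, G, h1, h2⟩ := key K hK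
    exact ⟨U, h1.2.1, ae_of_all _ fun x hx => (h2 x hx).1⟩
  · obtain ⟨U, G, h1, h2⟩ := key K hK
    exact ⟨G, h1.2.2, ae_of_all _ fun x hx => (h2 x hx).2⟩

/-- Chain rule with derivative bounded on closed convex sets containing the local ranges. -/
theorem Hloc.chain_on (h : Hloc vol u g v) {F : V → W}
    (hF : ∀ K : Set E, IsCompact K → ∃ (C : Set V) (L : ℝ), IsClosed C ∧ Convex ℝ C ∧
      C.Nonempty ∧ (∀ᵐ x ∂vol, x ∈ K → u x ∈ C) ∧
      ∀ y ∈ C, ContDiffAt ℝ 1 F y ∧ ‖fderiv ℝ F y‖ ≤ L) :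
    Hloc vol (fun x => F (u x)) (fun x => fderiv ℝ F (u x) (g x)) v := by
  obtain ⟨h1, h2, h3⟩ := h.wd_chain (F := F) fun K hK => by
    obtain ⟨C, L, a1, a2, a3, a4, a5⟩ := hF K hK
    refine ⟨C, L, a1, a2, a3, a4, fun y hy => ⟨(a5 y hy).1, (a5 y hy).2.trans ?_⟩⟩
    exact le_mul_of_one_le_right ((norm_nonneg _).trans (a5 y hy).2) (by simp)
  refine ⟨fun K hK => ?_, h.g2.of_le_loc h3 fun K hK => ?_, h1⟩
  · obtain ⟨C, L, a1, a2, ⟨c, a3⟩, a4, a5⟩ := hF K hK
    have l1 : L2loc vol fun x => ‖F c‖ + L • ‖u x - c‖ := (l2loc_of_continuous continuous_const).add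
      ((h.u2.sub (l2loc_of_continuous continuous_const)).norm.smul continuous_const)
    refine (l1 K hK).mono' h2.restrict ((ae_restrict_iff' hK.measurableSet).2 ?_)
    filter_upwards [a4] with x hx hxK
    have := a2.norm_image_sub_le_of_norm_fderiv_le (𝕜 := ℝ) (f := F) (C := L)
      (fun z hz => (a5 z hz).1.differentiableAt one_ne_zero) (fun z hz => (a5 z hz).2) a3 (hx hxK)
    exact (norm_le_norm_add_norm_sub' _ (F c)).trans (by rw [smul_eq_mul]; gcongr)
  · obtain ⟨C, L, a1, a2, a3, a4, a5⟩ := hF K hK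
    refine ⟨L, ?_⟩
    filter_upwards [a4] with x hx hxK
    exact (ContinuousLinearMap.le_opNorm _ _).trans
      (mul_le_mul_of_nonneg_right (a5 _ (hx hxK)).2 (norm_nonneg _))

/-- Chain rule for a `C¹` function with bounded derivative. -/
theorem Hloc.chain (h : Hloc vol u g v) {F : V → W} (hF : ContDiff ℝ 1 F) {L : ℝ}
    (hL : ∀ y, ‖fderiv ℝ F y‖ ≤ L) :
    Hloc vol (fun x => F (u x)) (fun x => fderiv ℝ F (u x) (g x)) v :=
  h.chain_on fun _ _ => ⟨univ, L, isClosed_univ, convex_univ, univ_nonempty, by simp,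
    fun y _ => ⟨hF.contDiffAt, hL y⟩⟩

theorem Hg.chain (h : Hg vol u g v) {F : V → W} (hF : ContDiff ℝ 1 F) {L : ℝ}
    (hL : ∀ y, ‖fderiv ℝ F y‖ ≤ L) (h0 : F 0 = 0) :
    Hg vol (fun x => F (u x)) (fun x => fderiv ℝ F (u x) (g x)) v := by
  have h1 := h.loc.chain hF hL
  refine h1.glob (h.u2.of_le_mul (c := L) h1.u2.aesm (ae_of_all _ fun x => ?_))
    (h.g2.of_le_mul (c := L) h1.g2.aesm (ae_of_all _ fun x => ?_))
  · simpa [h0] using convex_univ.norm_image_sub_le_of_norm_fderiv_le (𝕜 := ℝ) (f := F) (C := L)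
      (fun z _ => hF.differentiable one_ne_zero z) (fun z _ => hL z) (mem_univ 0) (mem_univ (u x))
  · exact (ContinuousLinearMap.le_opNorm _ _).trans
      (mul_le_mul_of_nonneg_right (hL _) (norm_nonneg _))

/-- Chain rule on compact convex local ranges. -/
theorem Hloc.chain_cpt (h : Hloc vol u g v) {F : V → W}
    (hF : ∀ K : Set E, IsCompact K → ∃ C : Set V, IsCompact C ∧ Convex ℝ C ∧
      C.Nonempty ∧ (∀ᵐ x ∂vol, x ∈ K → u x ∈ C) ∧ ∀ y ∈ C, ContDiffAt ℝ 1 F y) :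
    Hloc vol (fun x => F (u x)) (fun x => fderiv ℝ F (u x) (g x)) v := by
  refine h.chain_on fun K hK => ?_
  obtain ⟨C, a1, a2, a3, a4, a5⟩ := hF K hK
  obtain ⟨L, hL⟩ := a1.exists_bound_of_continuousOn (f := fderiv ℝ F)
    fun y hy => ((a5 y hy).continuousAt_fderiv (by simp)).continuousWithinAt
  exact ⟨C, L, a1.isClosed, a2, a3, a4, fun y hy => ⟨a5 y hy, hL y hy⟩⟩

/-- Chain rule for locally bounded functions with values in a finite dimensional space. -/
theorem Hloc.chain_bdd [FiniteDimensional ℝ V] (h : Hloc vol u g v) {F : V → W}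
    (hF : ContDiff ℝ 1 F) (hb : ∀ K : Set E, IsCompact K → ∃ M, ∀ᵐ x ∂vol, x ∈ K → ‖u x‖ ≤ M) :
    Hloc vol (fun x => F (u x)) (fun x => fderiv ℝ F (u x) (g x)) v := by
  have : ProperSpace V := FiniteDimensional.proper ℝ V
  refine h.chain_cpt fun K hK => ?_
  obtain ⟨M, hM⟩ := hb K hK
  refine ⟨Metric.closedBall 0 |M|, isCompact_closedBall _ _, convex_closedBall _ _,
    ⟨0, by simp⟩, ?_, fun y _ => hF.contDiffAt⟩
  filter_upwards [hM] with x hx hxK
  simpa using (hx hxK).trans (le_abs_self M)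

/-- Chain rule for pointwise limits of uniformly Lipschitz `C¹` functions. -/
theorem Hloc.chain_lim (h : Hloc vol u g v) {F : ℕ → V → W} (hF : ∀ k, ContDiff ℝ 1 (F k))
    {L : ℝ} (hL : ∀ k y, ‖fderiv ℝ (F k) y‖ ≤ L) {f : V → W} {G : E → W}
    (h1 : ∀ y, Tendsto (fun k => F k y) atTop (𝓝 (f y)))
    (h2 : ∀ᵐ x ∂vol, Tendsto (fun k => fderiv ℝ (F k) (u x) (g x)) atTop (𝓝 (G x))) :
    Hloc vol (fun x => f (u x)) G v := by
  have hk := fun k => h.chain (hF k) (hL k)
  obtain ⟨M, hM⟩ := (h1 0).norm.bddAbove_range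
  have hM' : ∀ k, ‖F k 0‖ ≤ M := fun k => hM ⟨k, rfl⟩
  have L0 : 0 ≤ L := (norm_nonneg _).trans (hL 0 0)
  have M0 : 0 ≤ M := (norm_nonneg _).trans (hM' 0)
  have b1 : ∀ k y, ‖F k y‖ ≤ M + L * ‖y‖ := fun k y => by
    have := convex_univ.norm_image_sub_le_of_norm_fderiv_le (𝕜 := ℝ) (f := F k) (C := L)
      (fun z _ => (hF k).differentiable one_ne_zero z) (fun z _ => hL k z) (mem_univ 0) (mem_univ y)
    rw [sub_zero] at this
    exact (norm_le_norm_add_norm_sub' _ (F k 0)).trans (add_le_add (hM' k) this)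
  have b2 : ∀ k x, ‖fderiv ℝ (F k) (u x) (g x)‖ ≤ L * ‖g x‖ := fun k x =>
    (ContinuousLinearMap.le_opNorm _ _).trans (mul_le_mul_of_nonneg_right (hL _ _) (norm_nonneg _))
  have lD : L2loc vol fun x => M + L • ‖u x‖ + L • ‖g x‖ :=
    ((l2loc_of_continuous continuous_const).add (h.u2.norm.smul continuous_const)).add
      (h.g2.norm.smul continuous_const)
  have c1 : ∀ k x, ‖F k (u x)‖ ≤ M + L • ‖u x‖ + L • ‖g x‖ := fun k x =>
    le_add_of_le_of_nonneg (b1 k _) (by rw [smul_eq_mul]; positivity)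
  have c2 : ∀ k x, ‖fderiv ℝ (F k) (u x) (g x)‖ ≤ M + L • ‖u x‖ + L • ‖g x‖ := fun k x =>
    le_add_of_nonneg_of_le (by rw [smul_eq_mul]; positivity) (b2 k x)
  refine ⟨lD.of_le (c := 1) (aestronglyMeasurable_of_tendsto_ae atTop (fun k => (hk k).u2.aesm)
    (ae_of_all _ fun x => h1 _)) (ae_of_all _ fun x => ?_),
    lD.of_le (c := 1) (aestronglyMeasurable_of_tendsto_ae atTop (fun k => (hk k).g2.aesm) h2) ?_,
    wd_of_lim (fun k => (hk k).wd) (fun k => (hk k).u2.aesm) (fun k => (hk k).g2.aesm) lD.locInt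
      (ae_of_all _ fun x => ⟨h1 _, fun k => c1 k x⟩) ?_⟩
  · rw [one_mul]
    exact (le_of_tendsto' (h1 (u x)).norm fun k => c1 k x).trans (le_abs_self _)
  · filter_upwards [h2] with x hx
    rw [one_mul]
    exact (le_of_tendsto' hx.norm fun k => c2 k x).trans (le_abs_self _)
  · filter_upwards [h2] with x hx
    exact ⟨hx, fun k => c2 k x⟩

/-- The product rule. -/
theorem Hloc.wd_bilin [CompleteSpace W] {w k : E → W} (h1 : Hloc vol u g v) (h2 : Hloc vol w k v)
    (B : V →L[ℝ] W →L[ℝ] X) :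
    WD vol (fun x => B (u x) (w x)) (fun x => B (g x) (w x) + B (u x) (k x)) v := by
  have hB := B.isBoundedBilinearMap
  have h3 := ((h1.pair h2).wd_chain (F := fun p : V × W => B p.1 p.2) fun K _ =>
    ⟨univ, 2 * ‖B‖, isClosed_univ, convex_univ, univ_nonempty, by simp,
      fun y _ => ⟨hB.contDiff.contDiffAt, ?_⟩⟩).1
  · refine h3.congr (ae_of_all _ fun x => rfl) (ae_of_all _ fun x => ?_)
    simp only [hB.fderiv, IsBoundedBilinearMap.deriv_apply, add_comm]
  · refine ContinuousLinearMap.opNorm_le_bound _ (by positivity) fun z => ?_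
    rw [hB.fderiv, IsBoundedBilinearMap.deriv_apply]
    have a1 := (B.le_opNorm₂ y.1 z.2).trans (show _ ≤ ‖B‖ * ‖y‖ * ‖z‖ by
      gcongr; exacts [norm_fst_le y, norm_snd_le z])
    have a2 := (B.le_opNorm₂ z.1 y.2).trans (show _ ≤ ‖B‖ * ‖z‖ * ‖y‖ by
      gcongr; exacts [norm_fst_le z, norm_snd_le y])
    refine (norm_add_le _ _).trans ?_
    nlinarith [mul_nonneg (norm_nonneg B) (norm_nonneg z)]

end

end Vale.Agent.Lib.H1
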