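import Vale.Agent.Lib.H1.Prod

/-! A function of two variables viewed as a function of the first variable with values in `L²`. -/

namespace Vale.Agent.Lib.H1

open MeasureTheory Set Filter Topology Vale.Agent.P349H
open scoped ENNReal ContDiff RealInnerProductSpace

noncomputable section

section cur

variable {α β V : Type*} [MeasurableSpace α] [MeasurableSpace β] {μ : Measure α} {ν : Measure β}
  [SFinite μ] [SFinite ν] [NormedAddCommGroup V]

open Classical in
/-- The slice `f (x, ·)` as an element of `L²`. -/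
def cur (ν : Measure β) (f : α × β → V) (x : α) : Lp V 2 ν :=
  if h : MemLp (fun y => f (x, y)) 2 ν then h.toLp _ else 0

variable {f g : α × β → V}

theorem cur_ae (h : MemLp f 2 (μ.prod ν)) : ∀ᵐ x ∂μ, cur ν f x =ᵐ[ν] fun y => f (x, y) := by
  filter_upwards [memLp_slice' h] with x hx
  rw [cur, dif_pos hx]
  exact hx.coeFn_toLp

omit [SFinite ν] in
theorem norm_sq_Lp (a : Lp V 2 ν) : ‖a‖ ^ 2 = ∫ y, ‖a y‖ ^ 2 ∂ν := by
  have h := (Lp.memLp a).eLpNorm_eq_integral_rpow_norm (by simp) (by simp)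
  rw [Lp.norm_def, h, ENNReal.toReal_ofReal (by positivity)]
  simp only [ENNReal.toReal_ofNat, Real.rpow_ofNat]
  exact Real.rpow_inv_natCast_pow (integral_nonneg fun y => by positivity) two_ne_zero

theorem cur_norm_sq (h : MemLp f 2 (μ.prod ν)) :
    ∀ᵐ x ∂μ, ‖cur ν f x‖ ^ 2 = ∫ y, ‖f (x, y)‖ ^ 2 ∂ν := by
  filter_upwards [cur_ae h] with x hx
  rw [norm_sq_Lp]
  exact integral_congr_ae (hx.mono fun y hy => by simp only [hy])

theorem cur_congr (h : f =ᵐ[μ.prod ν] g) : cur ν f =ᵐ[μ] cur ν g := by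
  filter_upwards [Measure.ae_ae_of_ae_prod h] with x hx
  by_cases h1 : MemLp (fun y => f (x, y)) 2 ν
  · rw [cur, cur, dif_pos h1, dif_pos (h1.ae_eq hx)]
    exact MemLp.toLp_congr _ _ hx
  · rw [cur, cur, dif_neg h1, dif_neg fun h2 => h1 (h2.ae_eq (EventuallyEq.symm hx))]

theorem cur_add (hf : MemLp f 2 (μ.prod ν)) (hg : MemLp g 2 (μ.prod ν)) :
    ∀ᵐ x ∂μ, cur ν (fun p => f p + g p) x = cur ν f x + cur ν g x := by
  filter_upwards [cur_ae hf, cur_ae hg, cur_ae (hf.add hg)] with x h1 h2 h3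
  refine Lp.ext ?_
  filter_upwards [h1, h2, h3, Lp.coeFn_add (cur ν f x) (cur ν g x)] with y a1 a2 a3 a4
  rw [a4, Pi.add_apply, a1, a2]
  exact a3

theorem cur_sub (hf : MemLp f 2 (μ.prod ν)) (hg : MemLp g 2 (μ.prod ν)) :
    ∀ᵐ x ∂μ, cur ν (fun p => f p - g p) x = cur ν f x - cur ν g x := by
  filter_upwards [cur_ae hf, cur_ae hg, cur_ae (hf.sub hg)] with x h1 h2 h3
  refine Lp.ext ?_
  filter_upwards [h1, h2, h3, Lp.coeFn_sub (cur ν f x) (cur ν g x)] with y a1 a2 a3 a4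
  rw [a4, Pi.sub_apply, a1, a2]
  exact a3

theorem measurable_of_dist {γ S : Type*} [MeasurableSpace γ] [PseudoMetricSpace S]
    [SecondCountableTopology S] [MeasurableSpace S] [BorelSpace S] {F : γ → S}
    (h : ∀ s, Measurable fun x => dist (F x) s) : Measurable F := by
  have hb : TopologicalSpace.IsTopologicalBasis {U : Set S | ∃ s r, U = Metric.ball s r} := by
    refine TopologicalSpace.isTopologicalBasis_of_isOpen_of_nhds ?_ fun a U ha hU => ?_
    · rintro _ ⟨s, r, rfl⟩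
      exact Metric.isOpen_ball
    · obtain ⟨r, hr, h1⟩ := Metric.isOpen_iff.1 hU a ha
      exact ⟨_, ⟨a, r, rfl⟩, Metric.mem_ball_self hr, h1⟩
  rw [BorelSpace.measurable_eq (α := S), hb.borel_eq_generateFrom]
  refine measurable_generateFrom ?_
  rintro _ ⟨s, r, rfl⟩
  exact h s measurableSet_Iio

variable [SecondCountableTopology (Lp V 2 ν)]

theorem cur_aesm (h : MemLp f 2 (μ.prod ν)) : AEStronglyMeasurable (cur ν f) μ := by
  borelize ↥(Lp V 2 ν)
  refine (NullMeasurable.aemeasurable ?_).aestronglyMeasurable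
  refine measurable_of_dist (γ := NullMeasurableSpace α μ) fun s => ?_
  refine AEMeasurable.nullMeasurable (μ := μ) ?_
  have m := ((h.1.sub ((Lp.aestronglyMeasurable s).comp_snd (μ := μ))).norm.pow 2).integral_prod_right'
  refine m.aemeasurable.sqrt.congr ?_
  filter_upwards [cur_ae h] with x hx
  rw [dist_eq_norm, ← Real.sqrt_sq (norm_nonneg (cur ν f x - s)), norm_sq_Lp]
  congr 1
  refine integral_congr_ae ?_
  filter_upwards [hx, Lp.coeFn_sub (cur ν f x) s] with y a1 a2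
  rw [a2, Pi.sub_apply, a1]
  rfl

theorem cur_memLp (h : MemLp f 2 (μ.prod ν)) : MemLp (cur ν f) 2 μ :=
  (memLp_two_iff_integrable_sq_norm (cur_aesm h)).2
    (((memLp_two_iff_integrable_sq_norm h.1).1 h).integral_prod_left.congr
      ((cur_norm_sq h).mono fun _ hx => hx.symm))

omit [SecondCountableTopology (Lp V 2 ν)] in
theorem integral_cur_norm_sq (h : MemLp f 2 (μ.prod ν)) :
    ∫ x, ‖cur ν f x‖ ^ 2 ∂μ = ∫ p, ‖f p‖ ^ 2 ∂(μ.prod ν) := by
  rw [integral_prod _ ((memLp_two_iff_integrable_sq_norm h.1).1 h)]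
  exact integral_congr_ae (cur_norm_sq h)

omit [SecondCountableTopology (Lp V 2 ν)]

theorem cur_smul [NormedSpace ℝ V] (hf : MemLp f 2 (μ.prod ν)) (φ : α → ℝ) :
    ∀ᵐ x ∂μ, cur ν (fun p => φ p.1 • f p) x = φ x • cur ν f x := by
  filter_upwards [memLp_slice' hf] with x hx
  have h1 : MemLp (fun y => φ (x, y).1 • f (x, y)) 2 ν := hx.const_smul (φ x)
  rw [cur, cur, dif_pos hx, dif_pos h1]
  exact MemLp.toLp_const_smul (φ x) hx

variable [InnerProductSpace ℝ V]

theorem cur_inner_left (h : MemLp f 2 (μ.prod ν)) :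
    ∀ᵐ x ∂μ, ∀ a : Lp V 2 ν, ⟪a, cur ν f x⟫ = ∫ y, ⟪a y, f (x, y)⟫ ∂ν := by
  filter_upwards [cur_ae h] with x hx a
  rw [L2.inner_def]
  exact integral_congr_ae (hx.mono fun y hy => by simp only [hy])

theorem cur_inner (hf : MemLp f 2 (μ.prod ν)) (hg : MemLp g 2 (μ.prod ν)) :
    ∀ᵐ x ∂μ, ⟪cur ν f x, cur ν g x⟫ = ∫ y, ⟪f (x, y), g (x, y)⟫ ∂ν := by
  filter_upwards [cur_ae hf, cur_inner_left hg] with x h1 h2
  rw [h2]
  exact integral_congr_ae (h1.mono fun y hy => by simp only [hy])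

theorem integral_cur_inner (hf : MemLp f 2 (μ.prod ν)) (hg : MemLp g 2 (μ.prod ν)) :
    ∫ x, ⟪cur ν f x, cur ν g x⟫ ∂μ = ∫ p, ⟪f p, g p⟫ ∂(μ.prod ν) := by
  have i : Integrable (fun p => ⟪f p, g p⟫) (μ.prod ν) := integrable_bilin hf hg (innerSL ℝ)
  rw [integral_prod _ i]
  exact integral_congr_ae (cur_inner hf hg)

end cur

variable {E F V : Type*} [NormedAddCommGroup E] [NormedSpace ℝ E] [FiniteDimensional ℝ E]
  [MeasurableSpace E] [BorelSpace E] {vol : Measure E} [vol.IsAddHaarMeasure]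
  [NormedAddCommGroup F] [NormedSpace ℝ F] [FiniteDimensional ℝ F]
  [MeasurableSpace F] [BorelSpace F] {ν : Measure F} [ν.IsAddHaarMeasure]
  [NormedAddCommGroup V] [InnerProductSpace ℝ V] [CompleteSpace V]
  [SecondCountableTopology (Lp V 2 ν)] {v : E}

omit [NormedSpace ℝ E] [FiniteDimensional ℝ E] [BorelSpace E] [NormedSpace ℝ F]
  [FiniteDimensional ℝ F] [BorelSpace F] [vol.IsAddHaarMeasure] [ν.IsAddHaarMeasure]
  [NormedAddCommGroup E] [NormedAddCommGroup F] in
theorem inner_test [SFinite vol] [SFinite ν] {f : E × F → V} (h : MemLp f 2 (vol.prod ν))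
    {φ : E → ℝ} (hφ : MemLp φ 2 vol) (a : Lp V 2 ν) :
    ⟪a, ∫ x, φ x • cur ν f x ∂vol⟫ = ∫ p, ⟪φ p.1 • a p.2, f p⟫ ∂(vol.prod ν) := by
  have i1 : Integrable (fun x => φ x • cur ν f x) vol :=
    integrable_bilin hφ (cur_memLp h) (ContinuousLinearMap.lsmul ℝ ℝ)
  have i2 : Integrable (fun p : E × F => ⟪φ p.1 • a p.2, f p⟫) (vol.prod ν) :=
    integrable_bilin (memLp_tensor hφ (Lp.memLp a) (ContinuousLinearMap.lsmul ℝ ℝ)) h (innerSL ℝ)
  rw [← integral_inner i1, integral_prod _ i2]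
  refine integral_congr_ae ?_
  filter_upwards [cur_inner_left h] with x hx
  simp only [real_inner_smul_right, real_inner_smul_left, integral_const_mul, hx a]

/-- Currying preserves weak derivatives in the first variable. -/
theorem Hg.cur {u g : E × F → V} (h : Hg (vol.prod ν) u g (v, 0)) :
    Hg vol (cur ν u) (cur ν g) v := by
  refine ⟨cur_memLp h.u2, cur_memLp h.g2, fun φ hφ hc => ext_inner_left ℝ fun a => ?_⟩
  have h1 := hg_of_contDiff (vol := vol) (one_le_inf hφ) hc v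
  rw [inner_neg_right, inner_test h.u2 h1.g2, inner_test h.g2 h1.u2]
  exact (h1.tensor (Lp.memLp a) (ContinuousLinearMap.lsmul ℝ ℝ)).ibp h (innerSL ℝ)

end

end Vale.Agent.Lib.H1
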