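import Vale.Agent.Lib.H1.Trunc

/-! Changes of variables, `L²` limits, tensor products and slices. -/

namespace Vale.Agent.Lib.H1

open MeasureTheory Set Filter Topology Vale.Agent.P349H
open scoped ENNReal ContDiff

noncomputable section

variable {E F V W X : Type*} [NormedAddCommGroup E] [NormedSpace ℝ E] [FiniteDimensional ℝ E]
  [MeasurableSpace E] [BorelSpace E] {vol : Measure E} [vol.IsAddHaarMeasure]
  [NormedAddCommGroup F] [NormedSpace ℝ F] [FiniteDimensional ℝ F]
  [MeasurableSpace F] [BorelSpace F] {ν : Measure F} [ν.IsAddHaarMeasure]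
  [NormedAddCommGroup V] [NormedSpace ℝ V] [NormedAddCommGroup W] [NormedSpace ℝ W]
  [NormedAddCommGroup X] [NormedSpace ℝ X] {v : E}

section change

omit [FiniteDimensional ℝ E] [vol.IsAddHaarMeasure] [FiniteDimensional ℝ F] [ν.IsAddHaarMeasure] in
/-- Measure preserving linear changes of variables. -/
theorem WD.comp_equiv {u g : F → V} (T : E ≃L[ℝ] F) (hT : MeasurePreserving T vol ν)
    (h : WD ν u g (T v)) : WD vol (fun x => u (T x)) (fun x => g (T x)) v := by
  intro φ hφ hc
  have h1 := h (φ ∘ T.symm) (hφ.comp T.symm.contDiff) (hc.comp_homeomorph T.symm.toHomeomorph)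
  have em : MeasurableEmbedding T := T.toHomeomorph.measurableEmbedding
  rw [← hT.integral_comp em, ← hT.integral_comp em] at h1
  simpa [T.symm.comp_right_fderiv] using h1

omit [FiniteDimensional ℝ E] [vol.IsAddHaarMeasure] [FiniteDimensional ℝ F] [ν.IsAddHaarMeasure] in
theorem Hg.comp_equiv {u g : F → V} (T : E ≃L[ℝ] F) (hT : MeasurePreserving T vol ν)
    (h : Hg ν u g (T v)) : Hg vol (fun x => u (T x)) (fun x => g (T x)) v :=
  ⟨h.u2.comp_measurePreserving hT, h.g2.comp_measurePreserving hT, h.wd.comp_equiv T hT⟩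

omit [FiniteDimensional ℝ E] [vol.IsAddHaarMeasure] [FiniteDimensional ℝ F] [ν.IsAddHaarMeasure]
  [NormedSpace ℝ V] [NormedSpace ℝ E] [NormedSpace ℝ F] in
theorem L2loc.comp_homeo {u : F → V} (T : E ≃ₜ F) (hT : MeasurePreserving T vol ν)
    (h : L2loc ν u) : L2loc vol fun x => u (T x) := by
  intro K hK
  have h1 := (h _ (hK.image T.continuous)).comp_measurePreserving
    (hT.restrict_preimage_emb T.measurableEmbedding (T '' K))
  rwa [T.injective.preimage_image] at h1

omit [FiniteDimensional ℝ E] [vol.IsAddHaarMeasure] [FiniteDimensional ℝ F] [ν.IsAddHaarMeasure] in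
theorem Hloc.comp_equiv {u g : F → V} (T : E ≃L[ℝ] F) (hT : MeasurePreserving T vol ν)
    (h : Hloc ν u g (T v)) : Hloc vol (fun x => u (T x)) (fun x => g (T x)) v :=
  ⟨h.u2.comp_homeo T.toHomeomorph hT, h.g2.comp_homeo T.toHomeomorph hT, h.wd.comp_equiv T hT⟩

variable {u g : E → V}

/-- Translations. -/
theorem WD.comp_add (h : WD vol u g v) (a : E) :
    WD vol (fun x => u (x + a)) (fun x => g (x + a)) v := by
  intro φ hφ hc
  have h1 := h (fun x => φ (x - a)) (hφ.comp (contDiff_id.sub contDiff_const))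
    (hc.comp_homeomorph (Homeomorph.subRight a))
  rw [← integral_add_right_eq_self _ a, ← integral_add_right_eq_self (fun x => φ (x - a) • g x) a]
    at h1
  simpa [fderiv_comp_sub] using h1

theorem Hg.comp_add (h : Hg vol u g v) (a : E) :
    Hg vol (fun x => u (x + a)) (fun x => g (x + a)) v :=
  ⟨h.u2.comp_measurePreserving (measurePreserving_add_right vol a),
    h.g2.comp_measurePreserving (measurePreserving_add_right vol a), h.wd.comp_add a⟩

theorem Hloc.comp_add (h : Hloc vol u g v) (a : E) :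
    Hloc vol (fun x => u (x + a)) (fun x => g (x + a)) v :=
  ⟨h.u2.comp_homeo (Homeomorph.addRight a) (measurePreserving_add_right vol a),
    h.g2.comp_homeo (Homeomorph.addRight a) (measurePreserving_add_right vol a), h.wd.comp_add a⟩

/-- Dilations. -/
theorem WD.comp_smul (h : WD vol u g v) {c : ℝ} (hc0 : c ≠ 0) :
    WD vol (fun x => u (c • x)) (fun x => c • g (c • x)) v := by
  intro φ hφ hc
  have h1 := h (fun x => φ (c⁻¹ • x)) (hφ.comp (contDiff_const_smul _))
    (hc.comp_smul (inv_ne_zero hc0))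
  have e : ∀ x, fderiv ℝ (fun x => φ (c⁻¹ • x)) x v = c⁻¹ * fderiv ℝ φ (c⁻¹ • x) v := fun x => by
    have h2 := ((hφ.differentiable (by simp)) (c⁻¹ • x)).hasFDerivAt.comp x
      ((hasFDerivAt_id x).const_smul c⁻¹)
    refine (congrArg (fun T : E →L[ℝ] ℝ => T v) h2.fderiv).trans ?_
    simp
  have e1 := Measure.integral_comp_smul vol (fun x => fderiv ℝ φ (c⁻¹ • x) v • u x) c
  have e2 := Measure.integral_comp_smul vol (fun x => φ (c⁻¹ • x) • g x) c
  simp only [inv_smul_smul₀ hc0] at e1 e2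
  simp only [e, mul_smul, integral_smul] at h1
  have e3 : ∀ x, φ x • c • g (c • x) = c • φ x • g (c • x) := fun x => smul_comm _ _ _
  simp only [e3, integral_smul]
  rw [e1, e2, smul_comm c, ← smul_neg, ← smul_neg, ← h1, smul_inv_smul₀ hc0]

omit [NormedSpace ℝ V] in
theorem memLp_comp_smul (h : MemLp u 2 vol) {c : ℝ} (hc0 : c ≠ 0) :
    MemLp (fun x => u (c • x)) 2 vol := by
  have h1 : MemLp u 2 (Measure.map (fun x : E => c • x) vol) := by
    rw [Measure.map_addHaar_smul vol hc0]
    exact h.smul_measure ENNReal.ofReal_ne_top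
  exact h1.comp_of_map (measurable_const_smul c).aemeasurable

theorem Hg.comp_smul (h : Hg vol u g v) {c : ℝ} (hc0 : c ≠ 0) :
    Hg vol (fun x => u (c • x)) (fun x => c • g (c • x)) v :=
  ⟨memLp_comp_smul h.u2 hc0, (memLp_comp_smul h.g2 hc0).const_smul c, h.wd.comp_smul hc0⟩

end change

section lim

variable {u g : E → V}

omit [FiniteDimensional ℝ E] [NormedSpace ℝ E] in
theorem test_lim_L2 {ι : Type*} {l : Filter ι} {U : ι → E → V} (hU : ∀ k, MemLp (U k) 2 vol)
    (hu : MemLp u 2 vol) (t : Tendsto (fun k => eLpNorm (U k - u) 2 vol) l (𝓝 0)) {φ : E → ℝ}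
    (hφ : MemLp φ 2 vol) :
    Tendsto (fun k => ∫ x, φ x • U k x ∂vol) l (𝓝 (∫ x, φ x • u x ∂vol)) := by
  have i1 : ∀ {a : E → V}, MemLp a 2 vol → Integrable (fun x => φ x • a x) vol := fun ha =>
    integrable_bilin hφ ha (ContinuousLinearMap.lsmul ℝ ℝ)
  refine tendsto_integral_of_L1' _ (i1 hu).1 (Eventually.of_forall fun k => i1 (hU k)) ?_
  have t1 := ENNReal.Tendsto.const_mul (a := eLpNorm φ 2 vol) t (Or.inr hφ.2.ne)
  rw [mul_zero] at t1
  refine tendsto_of_tendsto_of_tendsto_of_le_of_le tendsto_const_nhds t1 (fun _ => zero_le)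
    fun k => ?_
  have := eLpNorm_smul_le_mul_eLpNorm (p := 2) (q := 2) (r := 1) ((hU k).sub hu).1 hφ.1
  refine le_trans (le_of_eq ?_) this
  congr 1
  ext x
  simp [smul_sub]

omit [FiniteDimensional ℝ E] in
/-- Closedness of the weak derivative under `L²` limits. -/
theorem Hg.of_lim {ι : Type*} {l : Filter ι} [l.NeBot] {U G : ι → E → V}
    (h : ∀ k, Hg vol (U k) (G k) v) (hu : MemLp u 2 vol) (hg : MemLp g 2 vol)
    (t1 : Tendsto (fun k => eLpNorm (U k - u) 2 vol) l (𝓝 0))
    (t2 : Tendsto (fun k => eLpNorm (G k - g) 2 vol) l (𝓝 0)) : Hg vol u g v :=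
  ⟨hu, hg, wd_of_weak (Eventually.of_forall fun k => (h k).wd)
    (fun _ a b => test_lim_L2 (fun k => (h k).u2) hu t1 (a.memLp_of_hasCompactSupport b))
    (fun _ a b => test_lim_L2 (fun k => (h k).g2) hg t2 (a.memLp_of_hasCompactSupport b))⟩

end lim

section prod

omit [FiniteDimensional ℝ E] [MeasurableSpace E] [BorelSpace E] [FiniteDimensional ℝ F]
  [MeasurableSpace F] [BorelSpace F] in
theorem fd_slice {Φ : E × F → V} (hΦ : ContDiff ℝ ∞ Φ) (x v : E) (y : F) :
    fderiv ℝ (fun x => Φ (x, y)) x v = fderiv ℝ Φ (x, y) (v, 0) := by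
  have := (hΦ.differentiable (by simp) (x, y)).hasFDerivAt.comp x
    (hasFDerivAt_prodMk_left (𝕜 := ℝ) x y)
  exact congrArg (fun T : E →L[ℝ] V => T v) this.fderiv

theorem memLp_slice {α β : Type*} [MeasurableSpace α] [MeasurableSpace β] {μ : Measure α}
    {ν : Measure β} [SFinite μ] [SFinite ν] {V : Type*} [NormedAddCommGroup V] {f : α × β → V}
    (h : MemLp f 2 (μ.prod ν)) : ∀ᵐ y ∂ν, MemLp (fun x => f (x, y)) 2 μ := by
  filter_upwards [h.1.prodMk_right, ((memLp_two_iff_integrable_sq_norm h.1).1 h).prod_left_ae]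
    with y h1 h2
  exact (memLp_two_iff_integrable_sq_norm h1).2 h2

theorem memLp_slice' {α β : Type*} [MeasurableSpace α] [MeasurableSpace β] {μ : Measure α}
    {ν : Measure β} [SFinite μ] [SFinite ν] {V : Type*} [NormedAddCommGroup V] {f : α × β → V}
    (h : MemLp f 2 (μ.prod ν)) : ∀ᵐ x ∂μ, MemLp (fun y => f (x, y)) 2 ν := by
  filter_upwards [h.1.prodMk_left, ((memLp_two_iff_integrable_sq_norm h.1).1 h).prod_right_ae]
    with y h1 h2
  exact (memLp_two_iff_integrable_sq_norm h1).2 h2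

theorem memLp_tensor {α β : Type*} [MeasurableSpace α] [MeasurableSpace β] {μ : Measure α}
    {ν : Measure β} [SFinite μ] [SFinite ν] {a : α → V} {b : β → W} (ha : MemLp a 2 μ)
    (hb : MemLp b 2 ν) (B : V →L[ℝ] W →L[ℝ] X) :
    MemLp (fun p : α × β => B (a p.1) (b p.2)) 2 (μ.prod ν) := by
  have m := B.aestronglyMeasurable_comp₂ (ha.1.comp_fst (ν := ν)) (hb.1.comp_snd (μ := μ))
  have i := (((memLp_two_iff_integrable_sq_norm ha.1).1 ha).mul_prod
    ((memLp_two_iff_integrable_sq_norm hb.1).1 hb)).const_mul (‖B‖ ^ 2)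
  refine (memLp_two_iff_integrable_sq_norm m).2 (i.mono' (m.norm.pow 2) (ae_of_all _ fun p => ?_))
  rw [Real.norm_of_nonneg (by positivity), ← mul_pow, ← mul_pow, ← mul_assoc]
  exact pow_le_pow_left₀ (norm_nonneg _) (B.le_opNorm₂ _ _) 2

variable [CompleteSpace V]

/-- Almost every slice of an `H¹` function is `H¹`. -/
theorem Hg.slice {u g : E × F → V} (h : Hg (vol.prod ν) u g (v, 0)) :
    ∀ᵐ y ∂ν, Hg vol (fun x => u (x, y)) (fun x => g (x, y)) v := by
  obtain ⟨w, D, w1, -, hD, w3, -⟩ := approx (vol := vol.prod ν) (v := fun _ : Unit => (v, (0 : F)))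
    (g := fun _ => g) h.u2 (fun _ => h) one_pos
  have w4 := Measure.ae_ae_of_ae_prod (Measure.measurePreserving_swap.quasiMeasurePreserving.ae w3)
  filter_upwards [memLp_slice h.u2, memLp_slice h.g2, memLp_slice hD, w4] with y h1 h2 h3 h4
  have s1 : ∀ k, ContDiff ℝ 1 fun x => w k (x, y) := fun k =>
    (one_le_inf (w1 k)).comp (contDiff_prodMk_left y)
  refine ⟨h1, h2, wd_of_lim (fun k => wd_of_contDiff (s1 k) v)
    (fun k => (s1 k).continuous.aestronglyMeasurable)
    (fun k => (fd_cont (s1 k) v).aestronglyMeasurable) (h3.locallyIntegrable (by norm_num))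
    (h4.mono fun x hx => hx.1) (h4.mono fun x hx => ?_)⟩
  simpa only [fd_slice (w1 _), Prod.swap_prod_mk] using hx.2 ()

/-- The same for slices in the second variable. -/
theorem Hg.slice' {u g : E × F → V} {e : F} (h : Hg (vol.prod ν) u g (0, e)) :
    ∀ᵐ x ∂vol, Hg ν (fun y => u (x, y)) (fun y => g (x, y)) e :=
  (Hg.comp_equiv (v := (e, (0 : E))) (ContinuousLinearEquiv.prodComm ℝ F E)
    Measure.measurePreserving_swap h).slice

omit [CompleteSpace V] in
/-- A function whose slices are weakly differentiable is weakly differentiable. -/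
theorem wd_of_slices {u g : E × F → V} (hu : LocallyIntegrable u (vol.prod ν))
    (hg : LocallyIntegrable g (vol.prod ν))
    (h : ∀ᵐ y ∂ν, WD vol (fun x => u (x, y)) (fun x => g (x, y)) v) :
    WD (vol.prod ν) u g (v, 0) := by
  intro φ hφ hc
  rw [integral_prod_symm _ (int_test' hu hφ hc _), integral_prod_symm _
    (int_test hg hφ.continuous hc), ← integral_neg]
  refine integral_congr_ae (h.mono fun y hy => ?_)
  have h1 := hy (fun x => φ (x, y)) (hφ.comp (contDiff_prodMk_left y))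
    (hc.comp_isClosedEmbedding (Function.LeftInverse.isClosedEmbedding (f := Prod.fst)
      (g := fun x : E => (x, y)) (fun _ => rfl) continuous_fst (by fun_prop)))
  simpa only [fd_slice hφ] using h1

/-- Tensor products. -/
theorem Hg.tensor [CompleteSpace X] {u g : E → V} (h : Hg vol u g v) {b : F → W}
    (hb : MemLp b 2 ν) (B : V →L[ℝ] W →L[ℝ] X) :
    Hg (vol.prod ν) (fun p => B (u p.1) (b p.2)) (fun p => B (g p.1) (b p.2)) (v, 0) := by
  have m1 := memLp_tensor h.u2 hb B
  have m2 := memLp_tensor h.g2 hb B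
  exact ⟨m1, m2, wd_of_slices (m1.locallyIntegrable (by norm_num))
    (m2.locallyIntegrable (by norm_num)) (ae_of_all _ fun y => (h.clm (B.flip (b y))).wd)⟩

theorem Hg.tensor' [CompleteSpace X] {u g : F → V} {e : F} (h : Hg ν u g e) {b : E → W}
    (hb : MemLp b 2 vol) (B : W →L[ℝ] V →L[ℝ] X) :
    Hg (vol.prod ν) (fun p => B (b p.1) (u p.2)) (fun p => B (b p.1) (g p.2)) (0, e) :=
  Hg.comp_equiv (v := ((0 : E), e)) (ContinuousLinearEquiv.prodComm ℝ E F)
    Measure.measurePreserving_swap (h.tensor hb B.flip)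

end prod

end

end Vale.Agent.Lib.H1
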