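import Vale.Agent.Lib.H1.Curry

/-! Hardy and Sobolev inequalities for `H¹(ℝ³)` functions with values in a Hilbert space, and the
form bound for potentials in `L^{3/2} + L^∞`. -/

namespace Vale.Agent.Lib.H1

open MeasureTheory Set Filter Topology Vale.Agent.P349H
open scoped ENNReal NNReal ContDiff RealInnerProductSpace

noncomputable section

section gen

variable {α V : Type*} [MeasurableSpace α] {μ : Measure α} [NormedAddCommGroup V]

theorem sq_int {h : α → V} (hh : MemLp h 2 μ) : Integrable (fun x => ‖h x‖ ^ 2) μ :=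
  (memLp_two_iff_integrable_sq_norm hh.1).1 hh

theorem eLpNorm_two_eq {h : α → V} (hh : MemLp h 2 μ) :
    eLpNorm h 2 μ = ENNReal.ofReal (√(∫ x, ‖h x‖ ^ 2 ∂μ)) := by
  rw [hh.eLpNorm_eq_integral_rpow_norm (by simp) (by simp), Real.sqrt_eq_rpow]
  simp

theorem sq_lim {f : ℕ → α → V} {g : α → V} {D : α → ℝ} (hf : ∀ k, AEStronglyMeasurable (f k) μ)
    (hD : MemLp D 2 μ)
    (h : ∀ᵐ x ∂μ, Tendsto (fun k => f k x) atTop (𝓝 (g x)) ∧ ∀ k, ‖f k x‖ ≤ D x) :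
    Tendsto (fun k => ∫ x, ‖f k x‖ ^ 2 ∂μ) atTop (𝓝 (∫ x, ‖g x‖ ^ 2 ∂μ)) := by
  refine tendsto_integral_of_dominated_convergence (fun x => ‖D x‖ ^ 2)
    (fun k => (hf k).norm.pow 2) (sq_int hD) (fun k => h.mono fun x hx => ?_)
    (h.mono fun x hx => hx.1.norm.pow 2)
  rw [Real.norm_of_nonneg (by positivity)]
  exact pow_le_pow_left₀ (norm_nonneg _) ((hx.2 k).trans (le_abs_self _)) 2

/-- Fatou's lemma for Bochner integrals of nonnegative functions. -/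
theorem fatou_le {f : ℕ → α → ℝ} {g : α → ℝ} {C : ℝ} (hf : ∀ k, Integrable (f k) μ)
    (h0 : ∀ k, ∀ᵐ x ∂μ, 0 ≤ f k x) (h : ∀ᵐ x ∂μ, Tendsto (fun k => f k x) atTop (𝓝 (g x)))
    (hC : ∀ᶠ k in atTop, ∫ x, f k x ∂μ ≤ C) : Integrable g μ ∧ ∫ x, g x ∂μ ≤ C := by
  have mg := aestronglyMeasurable_of_tendsto_ae atTop (fun k => (hf k).1) h
  have g0 : ∀ᵐ x ∂μ, 0 ≤ g x := by
    filter_upwards [ae_all_iff.2 h0, h] with x h1 h2 using ge_of_tendsto' h2 h1
  have C0 : 0 ≤ C := by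
    obtain ⟨k, hk⟩ := hC.exists
    exact (integral_nonneg_of_ae (h0 k)).trans hk
  have h1 : eLpNorm g 1 μ ≤ ENNReal.ofReal C := by
    refine Lp.eLpNorm_le_of_ae_tendsto (u := atTop) ?_ (fun k => (hf k).1) h
    filter_upwards [hC] with k hk
    rw [eLpNorm_one_eq_lintegral_enorm, ← ofReal_integral_norm_eq_lintegral_enorm (hf k)]
    refine ENNReal.ofReal_le_ofReal (le_trans (le_of_eq (integral_congr_ae ?_)) hk)
    filter_upwards [h0 k] with x hx using Real.norm_of_nonneg hx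
  have ig : Integrable g μ :=
    memLp_one_iff_integrable.1 ⟨mg, h1.trans_lt ENNReal.ofReal_lt_top⟩
  refine ⟨ig, ?_⟩
  rw [eLpNorm_one_eq_lintegral_enorm, ← ofReal_integral_norm_eq_lintegral_enorm ig,
    ENNReal.ofReal_le_ofReal_iff C0] at h1
  exact (le_abs_self _).trans ((norm_integral_le_integral_norm g).trans h1)

end gen

variable {V : Type*} [NormedAddCommGroup V] [InnerProductSpace ℝ V] [CompleteSpace V]

section sq

variable {E : Type*} [NormedAddCommGroup E] [NormedSpace ℝ E] [FiniteDimensional ℝ E]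
  [MeasurableSpace E] [BorelSpace E] {vol : Measure E} [vol.IsAddHaarMeasure] {v : E}
  {u g : E → V}

omit [NormedAddCommGroup E] [NormedSpace ℝ E] [FiniteDimensional ℝ E] [BorelSpace E]
  [vol.IsAddHaarMeasure] [CompleteSpace V] in
theorem integrable_inner' {a b : E → V} (ha : MemLp a 2 vol) (hb : MemLp b 2 vol) :
    Integrable (fun x => ⟪a x, b x⟫) vol := integrable_bilin ha hb (innerSL ℝ)

omit [NormedAddCommGroup E] [NormedSpace ℝ E] [FiniteDimensional ℝ E] [BorelSpace E]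
  [vol.IsAddHaarMeasure] in
theorem integrable_bdd_mul {a f : E → ℝ} (hf : Integrable f vol)
    (ha : AEStronglyMeasurable a vol) {M : ℝ} (hM : ∀ᵐ x ∂vol, |a x| ≤ M) :
    Integrable (fun x => a x * f x) vol := hf.bdd_mul ha hM

/-- The multiplier identity `∫ X' |u|² = - 2 ∫ X ⟨u, u'⟩`. -/
theorem Hg.sq_ibp (h : Hg vol u g v) {X d : E → ℝ} (hX : Hloc vol X d v) {M : ℝ}
    (hM : ∀ᵐ x ∂vol, |X x| ≤ M ∧ |d x| ≤ M) :
    ∫ x, d x * ‖u x‖ ^ 2 ∂vol = -2 * ∫ x, X x * ⟪u x, g x⟫ ∂vol := by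
  have h1 : ∫ x, ⟪d x • u x + X x • g x, u x⟫ ∂vol = -∫ x, ⟪X x • u x, g x⟫ ∂vol :=
    (Hg.smul_lip hX h hM).ibp h (innerSL ℝ)
  simp only [inner_add_left, real_inner_smul_left, real_inner_self_eq_norm_sq,
    real_inner_comm (u _) (g _)] at h1
  rw [integral_add (integrable_bdd_mul (sq_int h.u2) hX.g2.aesm (hM.mono fun x hx => hx.2))
    (integrable_bdd_mul (integrable_inner' h.u2 h.g2) hX.u2.aesm (hM.mono fun x hx => hx.1))] at h1
  linarith

end sq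

/-- The standard basis of `ℝ³`. -/
abbrev e3 (k : Fin 3) : EuclideanSpace ℝ (Fin 3) := EuclideanSpace.single k 1

/-- `u ∈ H¹(ℝ³; V)` with weak gradient `g`. -/
def H3 {V : Type*} [NormedAddCommGroup V] [NormedSpace ℝ V] (u : EuclideanSpace ℝ (Fin 3) → V)
    (g : Fin 3 → EuclideanSpace ℝ (Fin 3) → V) : Prop := ∀ k, Hg volume u (g k) (e3 k)

variable {u : EuclideanSpace ℝ (Fin 3) → V} {g : Fin 3 → EuclideanSpace ℝ (Fin 3) → V}

theorem norm_sq_e3 (w : EuclideanSpace ℝ (Fin 3)) : ‖w‖ ^ 2 = ∑ k, w k ^ 2 := by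
  simp [EuclideanSpace.norm_sq_eq]

theorem abs_coord_le (w : EuclideanSpace ℝ (Fin 3)) (k : Fin 3) : |w k| ≤ ‖w‖ :=
  PiLp.norm_apply_le w k

theorem span_e3 : Submodule.span ℝ (range e3) = ⊤ := by
  have := (EuclideanSpace.basisFun (Fin 3) ℝ).toBasis.span_eq
  rwa [show ⇑(EuclideanSpace.basisFun (Fin 3) ℝ).toBasis = e3 from funext fun k => by simp] at this

theorem hardy_fd (a : EuclideanSpace ℝ (Fin 3)) {ε : ℝ} (hε : 0 < ε) (k : Fin 3)
    (x : EuclideanSpace ℝ (Fin 3)) :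
    fderiv ℝ (fun x : EuclideanSpace ℝ (Fin 3) => (x - a) k / (‖x - a‖ ^ 2 + ε)) x (e3 k) =
      1 / (‖x - a‖ ^ 2 + ε) - 2 * (x - a) k ^ 2 / (‖x - a‖ ^ 2 + ε) ^ 2 := by
  have s0 : ‖x - a‖ ^ 2 + ε ≠ 0 := by positivity
  have h0 := (hasFDerivAt_id (𝕜 := ℝ) x).sub_const a
  have h1 := (EuclideanSpace.proj (𝕜 := ℝ) k).hasFDerivAt.comp x h0
  have h2 := (hasDerivAt_inv s0).comp_hasFDerivAt x (h0.norm_sq.add_const ε)
  simp only [div_eq_mul_inv]
  refine (congrArg (fun T : _ →L[ℝ] ℝ => T (e3 k)) (h1.mul h2).fderiv).trans ?_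
  simp [EuclideanSpace.inner_single_right]
  ring

theorem hardy_eps (h : H3 u g) (a : EuclideanSpace ℝ (Fin 3)) {ε : ℝ} (hε : 0 < ε) :
    ∫ x, 1 / (‖x - a‖ ^ 2 + ε) * ‖u x‖ ^ 2 ≤ 4 * ∑ k, ∫ x, ‖g k x‖ ^ 2 := by
  have p : ∀ x : EuclideanSpace ℝ (Fin 3), 0 < ‖x - a‖ ^ 2 + ε := fun x => by positivity
  have sm : ∀ k, ContDiff ℝ 1 fun x : EuclideanSpace ℝ (Fin 3) => (x - a) k / (‖x - a‖ ^ 2 + ε) :=
    fun k => ContDiff.div (by fun_prop) (((contDiff_id.sub contDiff_const).norm_sq ℝ).add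
      contDiff_const) fun x => (p x).ne'
  have q : ∀ (x : EuclideanSpace ℝ (Fin 3)) k, (x - a) k ^ 2 ≤ ‖x - a‖ ^ 2 := fun x k => by
    rw [← sq_abs]; exact pow_le_pow_left₀ (abs_nonneg _) (abs_coord_le _ k) 2
  have i0 : ∀ x : EuclideanSpace ℝ (Fin 3), 1 / (‖x - a‖ ^ 2 + ε) ≤ 1 / ε := fun x =>
    one_div_le_one_div_of_le hε (by nlinarith [sq_nonneg ‖x - a‖])
  have q2 : ∀ (x : EuclideanSpace ℝ (Fin 3)) (t : ℝ), t ≤ ‖x - a‖ ^ 2 →
      t / (‖x - a‖ ^ 2 + ε) ^ 2 ≤ 1 / (‖x - a‖ ^ 2 + ε) := fun x t ht => by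
    rw [div_le_div_iff₀ (pow_pos (p x) 2) (p x)]
    nlinarith [p x]
  have bX : ∀ k (x : EuclideanSpace ℝ (Fin 3)), |(x - a) k / (‖x - a‖ ^ 2 + ε)| ≤ 1 + 3 / ε := by
    intro k x
    have h1 := (q2 x _ (q x k)).trans (i0 x)
    rw [← div_pow, ← sq_abs] at h1
    have : 3 / ε = 3 * (1 / ε) := by ring
    nlinarith [sq_nonneg (|(x - a) k / (‖x - a‖ ^ 2 + ε)| - 1), one_div_pos.2 hε]
  have bd : ∀ k (x : EuclideanSpace ℝ (Fin 3)),
      |1 / (‖x - a‖ ^ 2 + ε) - 2 * (x - a) k ^ 2 / (‖x - a‖ ^ 2 + ε) ^ 2| ≤ 1 + 3 / ε := by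
    intro k x
    have h1 := (q2 x _ (q x k)).trans (i0 x)
    have h2 : 0 ≤ (x - a) k ^ 2 / (‖x - a‖ ^ 2 + ε) ^ 2 := by positivity
    have : 3 / ε = 3 * (1 / ε) := by ring
    rw [mul_div_assoc, abs_le]
    constructor <;> nlinarith [one_div_pos.2 (p x), i0 x]
  have hl := fun k => hloc_of_contDiff (vol := volume) (sm k) (e3 k)
  simp only [hardy_fd a hε] at hl
  have key := fun k => (h k).sq_ibp (hl k) (ae_of_all _ fun x => ⟨bX k x, bd k x⟩)
  have I1 := fun k => integrable_bdd_mul (sq_int (h k).u2) (hl k).g2.aesm (ae_of_all _ (bd k))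
  have I2 := fun k => integrable_bdd_mul (integrable_inner' (h k).u2 (h k).g2) (hl k).u2.aesm
    (ae_of_all _ (bX k))
  have I3 := fun k => sq_int (h k).g2
  have I0 : Integrable fun x => 1 / (‖x - a‖ ^ 2 + ε) * ‖u x‖ ^ 2 :=
    integrable_bdd_mul (sq_int (h 0).u2) (Continuous.aestronglyMeasurable
      (continuous_const.div (by fun_prop) fun x => (p x).ne'))
      (ae_of_all _ fun x => (abs_of_pos (one_div_pos.2 (p x))).trans_le (i0 x))
  have I4 := fun k => (((I1 k).add ((I2 k).const_mul 2)).const_mul 2).add ((I3 k).const_mul 4)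
  refine (integral_mono I0 (integrable_finset_sum Finset.univ fun k _ => I4 k)
    fun x => ?_).trans (le_of_eq ?_)
  · have h1 : ∀ k, 2 * (1 / (‖x - a‖ ^ 2 + ε)) * ‖u x‖ ^ 2 -
        5 * ‖u x‖ ^ 2 / (‖x - a‖ ^ 2 + ε) ^ 2 * (x - a) k ^ 2 ≤
        2 * ((1 / (‖x - a‖ ^ 2 + ε) - 2 * (x - a) k ^ 2 / (‖x - a‖ ^ 2 + ε) ^ 2) * ‖u x‖ ^ 2 +
          2 * ((x - a) k / (‖x - a‖ ^ 2 + ε) * ⟪u x, g k x⟫)) + 4 * ‖g k x‖ ^ 2 := by
      intro k
      have h2 := sq_nonneg ‖((x - a) k / (‖x - a‖ ^ 2 + ε)) • u x + (2 : ℝ) • g k x‖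
      rw [norm_add_sq_real, norm_smul, norm_smul, mul_pow, mul_pow, real_inner_smul_left,
        real_inner_smul_right, Real.norm_eq_abs, sq_abs, Real.norm_eq_abs, sq_abs, div_pow] at h2
      refine le_of_sub_nonneg (h2.trans_eq ?_)
      ring
    refine le_trans ?_ (Finset.sum_le_sum fun k _ => h1 k)
    rw [Finset.sum_sub_distrib, ← Finset.mul_sum _ (fun k => (x - a) k ^ 2), ← norm_sq_e3]
    have h3 := mul_le_mul_of_nonneg_left (q2 x _ le_rfl) (by positivity : 0 ≤ 5 * ‖u x‖ ^ 2)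
    simp only [Finset.sum_const, Finset.card_univ, Fintype.card_fin, nsmul_eq_mul, Nat.cast_ofNat]
    refine le_of_sub_nonneg ((sub_nonneg.2 h3).trans_eq ?_)
    ring
  · rw [integral_finset_sum _ fun k _ => I4 k, Finset.mul_sum]
    refine Finset.sum_congr rfl fun k _ => ?_
    rw [integral_add' (((I1 k).add ((I2 k).const_mul 2)).const_mul 2) ((I3 k).const_mul 4),
      integral_const_mul, integral_const_mul, integral_add' (I1 k) ((I2 k).const_mul 2), key k,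
      integral_const_mul]
    ring

/-- Hardy's inequality. -/
theorem H3.hardy (h : H3 u g) (a : EuclideanSpace ℝ (Fin 3)) :
    Integrable (fun x => ‖u x‖ ^ 2 / ‖x - a‖ ^ 2) ∧
      ∫ x, ‖u x‖ ^ 2 / ‖x - a‖ ^ 2 ≤ 4 * ∑ k, ∫ x, ‖g k x‖ ^ 2 := by
  have hε : ∀ m : ℕ, (0 : ℝ) < 1 / (m + 1) := fun m => by positivity
  refine fatou_le (f := fun (m : ℕ) x => 1 / (‖x - a‖ ^ 2 + 1 / (m + 1)) * ‖u x‖ ^ 2) (fun m => ?_)
    (fun m => ae_of_all _ fun x => by positivity) ?_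
    (Eventually.of_forall fun m => hardy_eps h a (hε m))
  · have p : ∀ x : EuclideanSpace ℝ (Fin 3), 0 < ‖x - a‖ ^ 2 + 1 / ((m : ℝ) + 1) := fun x => by
      positivity
    refine integrable_bdd_mul (sq_int (h 0).u2) (Continuous.aestronglyMeasurable
      (continuous_const.div (by fun_prop) fun x => (p x).ne')) (M := 1 / (1 / ((m : ℝ) + 1)))
      (ae_of_all _ fun x => (abs_of_pos (one_div_pos.2 (p x))).trans_le ?_)
    exact one_div_le_one_div_of_le (hε m) (by nlinarith [sq_nonneg ‖x - a‖])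
  · filter_upwards [Measure.ae_ne volume a] with x hx
    have h0 : ‖x - a‖ ^ 2 + 0 ≠ 0 := by simpa [sub_eq_zero] using hx
    have := ((tendsto_const_nhds (x := (1 : ℝ))).div
      ((tendsto_one_div_add_atTop_nhds_zero_nat (𝕜 := ℝ)).const_add (‖x - a‖ ^ 2)) h0).mul_const
      (‖u x‖ ^ 2)
    rwa [add_zero, one_div_mul_eq_div] at this

/-- The Coulomb potential is infinitesimally form bounded. -/
theorem H3.coulomb (h : H3 u g) (a : EuclideanSpace ℝ (Fin 3)) {t : ℝ} (ht : 0 < t) :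
    Integrable (fun x => ‖u x‖ ^ 2 / ‖x - a‖) ∧ ∫ x, ‖u x‖ ^ 2 / ‖x - a‖ ≤
      (∫ x, ‖u x‖ ^ 2) / (2 * t) + 2 * t * ∑ k, ∫ x, ‖g k x‖ ^ 2 := by
  obtain ⟨h1, h2⟩ := h.hardy a
  have i1 := (sq_int (h 0).u2).div_const (2 * t)
  have i2 := h1.const_mul (t / 2)
  have b : ∀ x, ‖u x‖ ^ 2 / ‖x - a‖ ≤ ‖u x‖ ^ 2 / (2 * t) + t / 2 * (‖u x‖ ^ 2 / ‖x - a‖ ^ 2) := by
    intro x
    rcases (norm_nonneg (x - a)).eq_or_lt with h0 | h0
    · rw [← h0, div_zero]; positivity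
    · have : ‖u x‖ ^ 2 / (2 * t) + t / 2 * (‖u x‖ ^ 2 / ‖x - a‖ ^ 2) - ‖u x‖ ^ 2 / ‖x - a‖ =
          ‖u x‖ ^ 2 * (‖x - a‖ - t) ^ 2 / (2 * t * ‖x - a‖ ^ 2) := by
        field_simp
        ring
      exact le_of_sub_nonneg (this ▸ by positivity)
  have i3 : Integrable fun x => ‖u x‖ ^ 2 / ‖x - a‖ := by
    refine (i1.add i2).mono' ((sq_int (h 0).u2).1.aemeasurable.div
      (by fun_prop)).aestronglyMeasurable (ae_of_all _ fun x => ?_)
    rw [Real.norm_of_nonneg (by positivity)]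
    exact b x
  refine ⟨i3, (integral_mono i3 (i1.add i2) b).trans ?_⟩
  rw [integral_add' i1 i2, integral_div, integral_const_mul]
  nlinarith

/-- The constant in the Sobolev inequality. -/
def CS : ℝ :=
  3 * (eLpNormLESNormFDerivOfEqInnerConst (volume : Measure (EuclideanSpace ℝ (Fin 3))) 2 : ℝ) ^ 2

theorem CS_nonneg : 0 ≤ CS := by unfold CS; positivity

omit [CompleteSpace V] in
theorem opNorm_le_sum (T : EuclideanSpace ℝ (Fin 3) →L[ℝ] V) : ‖T‖ ≤ ∑ k, ‖T (e3 k)‖ := by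
  refine T.opNorm_le_bound (by positivity) fun w => ?_
  have e : w = ∑ k, w k • e3 k := by ext j; simp [Finset.sum_apply, Pi.single_apply]
  conv_lhs => rw [e]
  rw [map_sum, Finset.sum_mul]
  refine (norm_sum_le _ _).trans (Finset.sum_le_sum fun k _ => ?_)
  rw [map_smul, norm_smul, mul_comm]
  exact mul_le_mul_of_nonneg_left (abs_coord_le w k) (norm_nonneg _)

/-- The Sobolev inequality. -/
theorem H3.sobolev (h : H3 u g) :
    eLpNorm u 6 volume ≤ ENNReal.ofReal (√(CS * ∑ k, ∫ x, ‖g k x‖ ^ 2)) := by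
  obtain ⟨w, D, w1, w2, hD, w3, -⟩ := approx (h 0).u2 h one_pos
  set c := eLpNormLESNormFDerivOfEqInnerConst (volume : Measure (EuclideanSpace ℝ (Fin 3))) 2
    with hc
  have m := fun n k => (hg_of_contDiff (vol := volume) (one_le_inf (w1 n)) (w2 n) (e3 k)).g2
  have b : ∀ n, eLpNorm (w n) 6 volume ≤
      ENNReal.ofReal (√(CS * ∑ k, ∫ x, ‖fderiv ℝ (w n) x (e3 k)‖ ^ 2)) := by
    intro n
    have h1 := eLpNorm_le_eLpNorm_fderiv_of_eq_inner volume (one_le_inf (w1 n)) (w2 n) (p := 2)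
      (p' := 6) (by norm_num) (by simp) (by simp; norm_num)
    have m1 : MemLp (fderiv ℝ (w n)) 2 volume :=
      ((w1 n).continuous_fderiv (by simp)).memLp_of_hasCompactSupport ((w2 n).fderiv ℝ)
    simp only [ENNReal.coe_ofNat, NNReal.coe_ofNat, ← hc] at h1
    refine h1.trans ?_
    rw [eLpNorm_two_eq m1, ← ENNReal.ofReal_coe_nnreal, ← ENNReal.ofReal_mul c.coe_nonneg]
    refine ENNReal.ofReal_le_ofReal (Real.le_sqrt_of_sq_le ?_)
    rw [mul_pow, Real.sq_sqrt (integral_nonneg fun x => by positivity), CS, ← hc, mul_comm 3,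
      mul_assoc, ← integral_finset_sum _ fun k _ => sq_int (m n k), ← integral_const_mul 3]
    refine mul_le_mul_of_nonneg_left ?_ (sq_nonneg (c : ℝ))
    refine integral_mono (sq_int m1) ((integrable_finset_sum _ fun k _ => sq_int (m n k)).const_mul
      3) fun x => (pow_le_pow_left₀ (norm_nonneg _) (opNorm_le_sum _) 2).trans ?_
    simpa using sq_sum_le_card_mul_sum_sq (s := Finset.univ)
      (f := fun k => ‖fderiv ℝ (w n) x (e3 k)‖)
  have t := ENNReal.tendsto_ofReal ((tendsto_finset_sum Finset.univ fun k _ => sq_lim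
    (fun n => (m n k).1) hD (w3.mono fun x hx => hx.2 k)).const_mul CS).sqrt
  refine (Lp.eLpNorm_lim_le_liminf_eLpNorm (fun n => (w1 n).continuous.aestronglyMeasurable) u
    (w3.mono fun x hx => hx.1.1)).trans ?_
  rw [← t.liminf_eq]
  exact liminf_le_liminf (Eventually.of_forall b)

theorem H3.memLp_six (h : H3 u g) : MemLp u 6 volume :=
  ⟨(h 0).u2.1, h.sobolev.trans_lt ENNReal.ofReal_lt_top⟩

instance holder32 : ENNReal.HolderTriple (3 / 2) 3 1 := ⟨by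
  rw [ENNReal.inv_div (by simp) (by simp), inv_one, ← one_div, ENNReal.div_add_div_same,
    show (2 : ℝ≥0∞) + 1 = 3 by norm_num, ENNReal.div_self (by simp) (by simp)]⟩

/-- Potentials in `L^{3/2}`. -/
theorem H3.holder (h : H3 u g) {a : EuclideanSpace ℝ (Fin 3) → ℝ} (ha : MemLp a (3 / 2) volume) :
    Integrable (fun x => a x * ‖u x‖ ^ 2) ∧ ∫ x, |a x| * ‖u x‖ ^ 2 ≤
      (eLpNorm a (3 / 2) volume).toReal * (CS * ∑ k, ∫ x, ‖g k x‖ ^ 2) := by
  have p : 0 ≤ CS * ∑ k, ∫ x, ‖g k x‖ ^ 2 :=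
    mul_nonneg CS_nonneg (Finset.sum_nonneg fun k _ => integral_nonneg fun x => by positivity)
  have h1 : eLpNorm (fun x => ‖u x‖ ^ 2) 3 volume ≤ ENNReal.ofReal (CS * ∑ k, ∫ x, ‖g k x‖ ^ 2) := by
    have := eLpNorm_norm_rpow (p := 3) (μ := volume) u (two_pos : (0 : ℝ) < 2)
    simp only [Real.rpow_ofNat, ENNReal.ofReal_ofNat, ENNReal.rpow_ofNat] at this
    rw [this, show (3 : ℝ≥0∞) * 2 = 6 by norm_num]
    refine (pow_le_pow_left' h.sobolev 2).trans (le_of_eq ?_)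
    rw [← ENNReal.ofReal_pow (Real.sqrt_nonneg _), Real.sq_sqrt p]
  have m := (sq_int (h 0).u2).1
  have h2 := (eLpNorm_smul_le_mul_eLpNorm (p := 3 / 2) (q := 3) (r := 1) m ha.1).trans
    (mul_le_mul_right h1 _)
  have f : eLpNorm a (3 / 2) volume * ENNReal.ofReal (CS * ∑ k, ∫ x, ‖g k x‖ ^ 2) ≠ ⊤ :=
    ENNReal.mul_ne_top ha.2.ne ENNReal.ofReal_ne_top
  have i : Integrable fun x => a x * ‖u x‖ ^ 2 :=
    memLp_one_iff_integrable.1 ⟨ha.1.mul m, h2.trans_lt f.lt_top⟩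
  refine ⟨i, ?_⟩
  have h3 := ENNReal.toReal_mono f h2
  rw [eLpNorm_one_eq_lintegral_enorm, ENNReal.toReal_mul, ENNReal.toReal_ofReal p] at h3
  refine le_trans (le_of_eq ?_) h3
  rw [← integral_norm_eq_lintegral_enorm (ha.1.smul m)]
  simp [abs_mul]

/-- Splitting of a potential in `L^{3/2} + L^∞` with small `L^{3/2}` part. -/
theorem split_small {α : Type*} [MeasurableSpace α] {μ : Measure α} {a b : α → ℝ} {p : ℝ≥0∞}
    (ha : MemLp a p μ) (hb : MemLp b ⊤ μ) {ε : ℝ} (hε : 0 < ε) : ∃ (c : α → ℝ) (M : ℝ), 0 ≤ M ∧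
      MemLp c p μ ∧ (eLpNorm c p μ).toReal ≤ ε ∧ ∀ᵐ x ∂μ, |a x + b x| ≤ |c x| + M := by
  have h1 : MemLp (ha.1.mk a) p μ := ha.ae_eq ha.1.ae_eq_mk
  obtain ⟨M, hM, h2⟩ := h1.eLpNorm_indicator_norm_ge_pos_le ha.1.stronglyMeasurable_mk hε
  have ms : MeasurableSet {x | M ≤ (‖ha.1.mk a x‖₊ : ℝ)} :=
    measurableSet_le measurable_const ha.1.stronglyMeasurable_mk.measurable.norm
  obtain ⟨C, hC⟩ := eLpNormEssSup_lt_top_iff_isBoundedUnder.1 (eLpNorm_exponent_top (f := b) ▸ hb.2)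
  refine ⟨_, M + C, by positivity, h1.indicator ms, ENNReal.toReal_le_of_le_ofReal hε.le h2, ?_⟩
  filter_upwards [ha.1.ae_eq_mk, eventually_map.1 hC] with x h3 h4
  have h5 : |b x| ≤ C := h4
  refine (abs_add_le _ _).trans ?_
  rw [h3]
  by_cases h6 : M ≤ (‖ha.1.mk a x‖₊ : ℝ)
  · rw [indicator_of_mem (by exact h6)]
    linarith
  · have h7 : |ha.1.mk a x| < M := not_le.1 h6
    linarith [abs_nonneg ({x | M ≤ (‖ha.1.mk a x‖₊ : ℝ)}.indicator (ha.1.mk a) x)]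

/-- Potentials in `L^{3/2} + L^∞` are infinitesimally form bounded. -/
theorem form_bound {a b : EuclideanSpace ℝ (Fin 3) → ℝ} (ha : MemLp a (3 / 2) volume)
    (hb : MemLp b ⊤ volume) {ε : ℝ} (hε : 0 < ε) : ∃ C : ℝ, 0 ≤ C ∧
      ∀ (V : Type*) [NormedAddCommGroup V] [InnerProductSpace ℝ V] [CompleteSpace V]
        (u : EuclideanSpace ℝ (Fin 3) → V) (g : Fin 3 → EuclideanSpace ℝ (Fin 3) → V), H3 u g →
        Integrable (fun x => (a x + b x) * ‖u x‖ ^ 2) ∧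
        ∫ x, |a x + b x| * ‖u x‖ ^ 2 ≤ ε * (∑ k, ∫ x, ‖g k x‖ ^ 2) + C * ∫ x, ‖u x‖ ^ 2 := by
  have := CS_nonneg
  obtain ⟨c, M, h0, h1, h2, h3⟩ := split_small ha hb (ε := ε / (CS + 1)) (by positivity)
  refine ⟨M, h0, fun V _ _ _ u g h => ?_⟩
  obtain ⟨h4, h5⟩ := h.holder h1
  have i1 : Integrable fun x => |c x| * ‖u x‖ ^ 2 := by simpa [abs_mul] using h4.abs
  have i2 := (sq_int (h 0).u2).const_mul M
  have bd : ∀ᵐ x, |a x + b x| * ‖u x‖ ^ 2 ≤ |c x| * ‖u x‖ ^ 2 + M * ‖u x‖ ^ 2 := by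
    filter_upwards [h3] with x hx
    rw [← add_mul]
    gcongr
  have i3 : Integrable fun x => (a x + b x) * ‖u x‖ ^ 2 := by
    refine (i1.add i2).mono' ((ha.1.add hb.1).mul (sq_int (h 0).u2).1) (bd.mono fun x hx => ?_)
    simpa [abs_mul] using hx
  have i4 : Integrable fun x => |a x + b x| * ‖u x‖ ^ 2 := by simpa [abs_mul] using i3.abs
  refine ⟨i3, (integral_mono_ae i4 (i1.add i2) bd).trans ?_⟩
  rw [integral_add' i1 i2, integral_const_mul]
  refine add_le_add_left ?_ (M * ∫ x, ‖u x‖ ^ 2)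
  have p : 0 ≤ ∑ k, ∫ x, ‖g k x‖ ^ 2 :=
    Finset.sum_nonneg fun k _ => integral_nonneg fun x => by positivity
  refine h5.trans ((mul_le_mul_of_nonneg_right h2 (by positivity)).trans ?_)
  rw [← mul_assoc]
  gcongr
  rw [div_mul_eq_mul_div, div_le_iff₀ (by positivity)]
  nlinarith

end

end Vale.Agent.Lib.H1
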