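import Vale.Agent.Lib.H1.Chain

/-! Norms, truncations, level sets, integration by parts, vanishing gradients. -/

namespace Vale.Agent.Lib.H1

open MeasureTheory Set Filter Topology Vale.Agent.P349H
open scoped ENNReal ContDiff RealInnerProductSpace

noncomputable section

variable {E V W X : Type*} [NormedAddCommGroup E] [NormedSpace ℝ E] [FiniteDimensional ℝ E]
  [MeasurableSpace E] [BorelSpace E] {vol : Measure E} [vol.IsAddHaarMeasure]
  [NormedAddCommGroup W] [NormedSpace ℝ W] [NormedAddCommGroup X] [NormedSpace ℝ X] {v : E}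

section inner

variable [NormedAddCommGroup V] [InnerProductSpace ℝ V] {u g : E → V}

theorem hasFDerivAt_rnorm {ε : ℝ} (hε : ε ≠ 0) (y : V) :
    HasFDerivAt (fun y : V => √(‖y‖ ^ 2 + ε ^ 2))
      ((√(‖y‖ ^ 2 + ε ^ 2))⁻¹ • innerSL ℝ y) y := by
  have h1 := ((hasStrictFDerivAt_norm_sq y).hasFDerivAt.add_const (ε ^ 2)).sqrt (by positivity)
  refine h1.congr_fderiv ?_
  ext z
  simp only [ContinuousLinearMap.smul_apply, smul_eq_mul, innerSL_apply_apply, nsmul_eq_mul]
  have : √(‖y‖ ^ 2 + ε ^ 2) ≠ 0 := by positivity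
  field_simp
  norm_num

theorem contDiff_rnorm {ε : ℝ} (hε : ε ≠ 0) : ContDiff ℝ 1 fun y : V => √(‖y‖ ^ 2 + ε ^ 2) :=
  ((contDiff_norm_sq ℝ).add contDiff_const).sqrt fun y => by positivity

theorem norm_le_rnorm (ε : ℝ) (y : V) : ‖y‖ ≤ √(‖y‖ ^ 2 + ε ^ 2) :=
  Real.le_sqrt_of_sq_le (by nlinarith [sq_nonneg ε])

theorem fderiv_rnorm_le {ε : ℝ} (hε : ε ≠ 0) (y : V) :
    ‖fderiv ℝ (fun y : V => √(‖y‖ ^ 2 + ε ^ 2)) y‖ ≤ 1 := by
  rw [(hasFDerivAt_rnorm hε y).fderiv, norm_smul, innerSL_apply_norm,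
    Real.norm_of_nonneg (by positivity), inv_mul_le_iff₀ (by positivity), mul_one]
  exact norm_le_rnorm ε y

variable [CompleteSpace V]

/-- The regularized norm. -/
theorem Hloc.rnorm (h : Hloc vol u g v) {ε : ℝ} (hε : ε ≠ 0) :
    Hloc vol (fun x => √(‖u x‖ ^ 2 + ε ^ 2)) (fun x => ⟪u x, g x⟫ / √(‖u x‖ ^ 2 + ε ^ 2)) v := by
  refine (h.chain (contDiff_rnorm hε) (fderiv_rnorm_le hε)).congr (ae_of_all _ fun x => rfl)
    (ae_of_all _ fun x => ?_)
  simp [(hasFDerivAt_rnorm hε _).fderiv, div_eq_inv_mul]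

/-- The norm of an `H¹` function. -/
theorem Hloc.norm (h : Hloc vol u g v) :
    Hloc vol (fun x => ‖u x‖) (fun x => ⟪u x, g x⟫ / ‖u x‖) v := by
  have hε : ∀ k : ℕ, (1 : ℝ) / (k + 1) ≠ 0 := fun k => by positivity
  have t : ∀ y : V, Tendsto (fun k : ℕ => √(‖y‖ ^ 2 + ((1 : ℝ) / (k + 1)) ^ 2)) atTop (𝓝 ‖y‖) := by
    intro y
    have := ((tendsto_one_div_add_atTop_nhds_zero_nat (𝕜 := ℝ).pow 2).const_add (‖y‖ ^ 2)).sqrt
    simpa using this
  refine h.chain_lim (fun k => contDiff_rnorm (hε k)) (fun k => fderiv_rnorm_le (hε k)) t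
    (ae_of_all _ fun x => ?_)
  simp only [fun k => (hasFDerivAt_rnorm (hε k) (u x)).fderiv, ContinuousLinearMap.smul_apply,
    innerSL_apply_apply, smul_eq_mul]
  by_cases h0 : u x = 0
  · simp [h0]
  · rw [div_eq_inv_mul]
    exact ((t (u x)).inv₀ (norm_ne_zero_iff.2 h0)).mul_const _

omit [CompleteSpace V] in
theorem abs_inner_div_le (a b : V) : |⟪a, b⟫ / ‖a‖| ≤ ‖b‖ := by
  rw [abs_div, abs_norm]
  exact div_le_of_le_mul₀ (norm_nonneg _) (norm_nonneg _)
    ((abs_real_inner_le_norm a b).trans_eq (mul_comm _ _))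

theorem Hg.norm (h : Hg vol u g v) :
    Hg vol (fun x => ‖u x‖) (fun x => ⟪u x, g x⟫ / ‖u x‖) v :=
  h.loc.norm.glob h.u2.norm
    (h.g2.of_le h.loc.norm.g2.aesm (ae_of_all _ fun _ => abs_inner_div_le _ _))

end inner

section real

variable {u g w h : E → ℝ}

theorem Hloc.zero_set_real (h1 : Hloc vol u g v) : ∀ᵐ x ∂vol, u x = 0 → g x = 0 := by
  have hd : ∀ (k : ℕ) (t : ℝ), HasDerivAt (fun t : ℝ => Real.arctan ((k + 1) * t) / (k + 1))
      (1 / (1 + ((k + 1) * t) ^ 2)) t := fun k t => by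
    have := (((hasDerivAt_id t).const_mul ((k : ℝ) + 1)).arctan).div_const ((k : ℝ) + 1)
    refine this.congr_deriv ?_
    simp only [id]
    field_simp
  have h2 := h1.chain_lim (F := fun (k : ℕ) (t : ℝ) => Real.arctan ((k + 1) * t) / (k + 1))
    (fun k => (Real.contDiff_arctan.comp (contDiff_const.mul contDiff_id)).div_const _) (L := 1)
    (fun k t => ?_) (f := fun _ => 0) (G := fun x => if u x = 0 then g x else 0) (fun t => ?_)
    (ae_of_all _ fun x => ?_)
  · filter_upwards [h2.unique (hloc_const 0 v)] with x hx h0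
    simpa [h0] using hx
  · rw [← norm_deriv_eq_norm_fderiv, (hd k t).deriv, Real.norm_of_nonneg (by positivity),
      div_le_one (by positivity)]
    nlinarith [sq_nonneg ((k + 1 : ℝ) * t)]
  · refine squeeze_zero_norm (a := fun k : ℕ => Real.pi / 2 * (1 / (k + 1))) (fun k => ?_) ?_
    · rw [norm_div, Real.norm_of_nonneg (by positivity : (0 : ℝ) ≤ k + 1), mul_one_div]
      gcongr
      exact abs_le.2 ⟨(Real.neg_pi_div_two_lt_arctan _).le, (Real.arctan_lt_pi_div_two _).le⟩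
    · simpa using (tendsto_one_div_add_atTop_nhds_zero_nat (𝕜 := ℝ)).const_mul (Real.pi / 2)
  · simp only [fun k => (hd k (u x)).hasFDerivAt.fderiv, ContinuousLinearMap.toSpanSingleton_apply,
      smul_eq_mul]
    by_cases h0 : u x = 0
    · simp [h0]
    · have t1 : Tendsto (fun k : ℕ => 1 + (((k : ℝ) + 1) * u x) ^ 2) atTop atTop := by
        refine tendsto_atTop_add_const_left _ _ ?_
        simp only [mul_pow]
        exact ((tendsto_pow_atTop two_ne_zero).comp (tendsto_atTop_add_const_right _ _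
          tendsto_natCast_atTop_atTop)).atTop_mul_const (by positivity)
      simpa [h0] using t1.inv_tendsto_atTop.const_mul (g x)

theorem Hloc.abs (h1 : Hloc vol u g v) :
    Hloc vol (fun x => |u x|) (fun x => SignType.sign (u x) * g x) v := by
  refine h1.norm.congr (ae_of_all _ fun x => rfl) (ae_of_all _ fun x => ?_)
  simp only [Real.norm_eq_abs, Real.inner_apply]
  rcases lt_trichotomy (u x) 0 with h0 | h0 | h0
  · rw [abs_of_neg h0, sign_neg h0, div_eq_iff (by linarith)]; simp; ring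
  · simp [h0]
  · rw [abs_of_pos h0, sign_pos h0, div_eq_iff h0.ne']; simp; ring

/-- The positive part. -/
theorem Hloc.pos (h1 : Hloc vol u g v) :
    Hloc vol (fun x => max (u x) 0) (fun x => if 0 < u x then g x else 0) v := by
  refine ((h1.add h1.abs).const_smul (1 / 2)).congr (ae_of_all _ fun x => ?_) ?_
  · rcases le_total (u x) 0 with h0 | h0
    · simp [h0, abs_of_nonpos h0]
    · simp only [smul_eq_mul, abs_of_nonneg h0, max_eq_left h0]; ring
  · filter_upwards [h1.zero_set_real] with x hx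
    rcases lt_trichotomy (u x) 0 with h0 | h0 | h0
    · simp [sign_neg h0, h0.le]
    · simp [h0, hx h0]
    · simp only [sign_pos h0, h0, if_true, smul_eq_mul, SignType.coe_one]; ring

theorem Hloc.max (h1 : Hloc vol u g v) (h2 : Hloc vol w h v) :
    Hloc vol (fun x => max (u x) (w x)) (fun x => if w x < u x then g x else h x) v := by
  refine ((h1.sub h2).pos.add h2).congr (ae_of_all _ fun x => ?_) (ae_of_all _ fun x => ?_)
  · simp only [← max_add_add_right, sub_add_cancel, zero_add]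
  · by_cases h0 : w x < u x <;> simp [h0]

theorem Hloc.min (h1 : Hloc vol u g v) (h2 : Hloc vol w h v) :
    Hloc vol (fun x => min (u x) (w x)) (fun x => if u x < w x then g x else h x) v := by
  refine (h1.neg.max h2.neg).neg.congr (ae_of_all _ fun x => ?_) (ae_of_all _ fun x => ?_)
  · simp only [max_neg_neg, neg_neg]
  · by_cases h0 : u x < w x <;> simp [h0]

theorem Hg.abs (h1 : Hg vol u g v) :
    Hg vol (fun x => |u x|) (fun x => SignType.sign (u x) * g x) v := by
  refine h1.loc.abs.glob h1.u2.abs (h1.g2.of_le h1.loc.abs.g2.aesm (ae_of_all _ fun x => ?_))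
  rcases lt_trichotomy (u x) 0 with h0 | h0 | h0 <;> simp [h0]

theorem Hg.pos (h1 : Hg vol u g v) :
    Hg vol (fun x => max (u x) 0) (fun x => if 0 < u x then g x else 0) v := by
  refine h1.loc.pos.glob h1.u2.pos_part (h1.g2.of_le h1.loc.pos.g2.aesm (ae_of_all _ fun x => ?_))
  by_cases h0 : 0 < u x <;> simp [h0]

/-- The positive part of `u - w` for `w ≥ 0` is square integrable together with its derivative as
soon as the derivative of `w` is controlled where `w < u`. -/
theorem Hg.pos_sub (h1 : Hg vol u g v) (h2 : Hloc vol w h v) (h0 : ∀ᵐ x ∂vol, 0 ≤ w x) {c : ℝ}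
    (hb : ∀ᵐ x ∂vol, w x < u x → |h x| ≤ c * u x) :
    Hg vol (fun x => max (u x - w x) 0) (fun x => if w x < u x then g x - h x else 0) v := by
  have h3 := (h1.loc.sub h2).pos
  simp only [sub_pos] at h3
  refine h3.glob (h1.u2.of_le h3.u2.aesm ?_)
    ((h1.g2.norm.add (h1.u2.norm.const_mul |c|)).mono' h3.g2.aesm ?_)
  · filter_upwards [h0] with x hx
    rw [Real.norm_of_nonneg (le_max_right _ _)]
    exact max_le (by linarith [le_abs_self (u x), Real.norm_eq_abs (u x)]) (norm_nonneg _)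
  · filter_upwards [hb] with x hx
    by_cases h4 : w x < u x
    · simp only [h4, if_true, Pi.add_apply, Real.norm_eq_abs, ← abs_mul]
      exact (abs_sub _ _).trans (add_le_add le_rfl ((hx h4).trans (le_abs_self _)))
    · simp only [h4, if_false, norm_zero, Pi.add_apply]; positivity

end real

variable [NormedAddCommGroup V] [NormedSpace ℝ V] [CompleteSpace V] {u g : E → V}

/-- The weak derivative vanishes on the zero set. -/
theorem Hloc.zero_set (h : Hloc vol u g v) : ∀ᵐ x ∂vol, u x = 0 → g x = 0 := by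
  classical
  obtain ⟨t, ht, h1⟩ := h.g2.aesm.isSeparable_ae_range
  have h2 := ae_eq_zero_of_forall_dual_of_isSeparable (μ := vol) ℝ (ht.union (finite_singleton
    (0 : V)).isSeparable) (f := fun x => if u x = 0 then g x else 0) (fun c => ?_) ?_
  · filter_upwards [h2] with x hx h0
    simpa [h0] using hx
  · filter_upwards [(h.clm c).zero_set_real] with x hx
    by_cases h0 : u x = 0
    · simpa [h0] using hx
    · simp [h0]
  · filter_upwards [h1] with x hx
    by_cases h0 : u x = 0 <;> simp [h0, hx]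

theorem Hloc.eq_set {w k : E → V} (h1 : Hloc vol u g v) (h2 : Hloc vol w k v) :
    ∀ᵐ x ∂vol, u x = w x → g x = k x := by
  simpa only [sub_eq_zero] using (h1.sub h2).zero_set

/-- A function vanishing outside a compact set. -/
theorem Hloc.glob_of_supp (h : Hloc vol u g v) {K : Set E} (hK : IsCompact K)
    (h0 : ∀ᵐ x ∂vol, x ∉ K → u x = 0) : Hg vol u g v := by
  refine h.glob (h.u2.memLp hK h0) (h.g2.memLp hK ?_)
  filter_upwards [h0, h.zero_set] with x h1 h2 hx using h2 (h1 hx)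

omit [CompleteSpace V] in
theorem WD.integral_eq_zero (h : WD vol u g v) (hu : Integrable u vol) (hg : Integrable g vol) :
    ∫ x, g x ∂vol = 0 := by
  obtain ⟨χ, C, hC, c1, c2, c3, c4, c5⟩ := exists_cutseq E
  have ev : ∀ x : E, ∀ᶠ k : ℕ in atTop, χ k x = 1 ∧ fderiv ℝ (χ k) x = 0 := fun x => by
    filter_upwards [tendsto_natCast_atTop_atTop.eventually_ge_atTop ‖x‖] with k hk
    exact c5 k x (by linarith)
  have t1 : Tendsto (fun k => ∫ x, χ k x • g x ∂vol) atTop (𝓝 (∫ x, g x ∂vol)) := by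
    refine tendsto_integral_of_dominated_convergence (fun x => ‖g x‖)
      (fun k => (c1 k).continuous.aestronglyMeasurable.smul hg.1) hg.norm
      (fun k => ae_of_all _ fun x => ?_) (ae_of_all _ fun x => tendsto_const_nhds.congr' ?_)
    · rw [norm_smul, Real.norm_of_nonneg (c3 k x).1]
      exact mul_le_of_le_one_left (norm_nonneg _) (c3 k x).2
    · filter_upwards [ev x] with k hk
      simp [hk.1]
  have t2 : Tendsto (fun k => ∫ x, fderiv ℝ (χ k) x v • u x ∂vol) atTop (𝓝 (∫ _x, 0 ∂vol)) := by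
    refine tendsto_integral_of_dominated_convergence (fun x => C * ‖v‖ * ‖u x‖)
      (fun k => (fd_cont (one_le_inf (c1 k)) v).aestronglyMeasurable.smul hu.1)
      (hu.norm.const_mul _) (fun k => ae_of_all _ fun x => ?_)
      (ae_of_all _ fun x => tendsto_const_nhds.congr' ?_)
    · rw [norm_smul]
      gcongr
      refine ((fderiv ℝ (χ k) x).le_opNorm _).trans ?_
      gcongr
      exact (c4 k x).trans (div_le_self hC (by simp))
    · filter_upwards [ev x] with k hk
      simp [hk.2]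
  simp only [fun k => h _ (c1 k) (c2 k), integral_zero] at t2
  exact neg_eq_zero.1 (tendsto_nhds_unique t1.neg t2)

omit [CompleteSpace V] in
theorem integrable_bilin {α : Type*} [MeasurableSpace α] {μ : Measure α} {a : α → V} {b : α → W}
    (ha : MemLp a 2 μ) (hb : MemLp b 2 μ) (B : V →L[ℝ] W →L[ℝ] X) :
    Integrable (fun x => B (a x) (b x)) μ := by
  refine ((ha.norm.integrable_mul hb.norm).const_mul ‖B‖).mono'
    (B.aestronglyMeasurable_comp₂ ha.1 hb.1) (ae_of_all _ fun x => ?_)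
  simpa only [Pi.mul_apply, mul_assoc] using B.le_opNorm₂ (a x) (b x)

variable [CompleteSpace W] {w k : E → W}

/-- Integration by parts in `H¹ × H¹`. -/
theorem Hg.ibp (h1 : Hg vol u g v) (h2 : Hg vol w k v) (B : V →L[ℝ] W →L[ℝ] X) :
    ∫ x, B (g x) (w x) ∂vol = -∫ x, B (u x) (k x) ∂vol := by
  have i1 := integrable_bilin h1.g2 h2.u2 B
  have i2 := integrable_bilin h1.u2 h2.g2 B
  rw [eq_neg_iff_add_eq_zero, ← integral_add i1 i2]
  exact (h1.loc.wd_bilin h2.loc B).integral_eq_zero (integrable_bilin h1.u2 h2.u2 B) (i1.add i2)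

omit [CompleteSpace V] [CompleteSpace W] in
theorem integrable_bilin_supp {a : E → V} {b : E → W} (ha : L2loc vol a) (hb : L2loc vol b)
    {K : Set E} (hK : IsCompact K) (h0 : ∀ᵐ x ∂vol, x ∉ K → b x = 0) (B : V →L[ℝ] W →L[ℝ] X) :
    Integrable (fun x => B (a x) (b x)) vol := by
  have h1 := (integrable_indicator_iff hK.measurableSet).2
    (integrable_bilin (ha K hK) (hb K hK) B)
  refine h1.congr ?_
  filter_upwards [h0] with x hx
  by_cases hxK : x ∈ K
  · simp [hxK]
  · simp [hxK, hx hxK]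

/-- Integration by parts against a compactly supported `H¹` function. -/
theorem Hloc.ibp (h1 : Hloc vol u g v) (h2 : Hloc vol w k v) {K : Set E} (hK : IsCompact K)
    (h0 : ∀ᵐ x ∂vol, x ∉ K → w x = 0) (B : V →L[ℝ] W →L[ℝ] X) :
    ∫ x, B (g x) (w x) ∂vol = -∫ x, B (u x) (k x) ∂vol := by
  have h3 : ∀ᵐ x ∂vol, x ∉ K → k x = 0 := by
    filter_upwards [h0, h2.zero_set] with x a1 a2 hx using a2 (a1 hx)
  have i1 := integrable_bilin_supp h1.g2 h2.u2 hK h0 B
  have i2 := integrable_bilin_supp h1.u2 h2.g2 hK h3 B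
  rw [eq_neg_iff_add_eq_zero, ← integral_add i1 i2]
  exact (h1.wd_bilin h2 B).integral_eq_zero (integrable_bilin_supp h1.u2 h2.u2 hK h0 B) (i1.add i2)

/-- Product of two locally bounded `H¹` functions. -/
theorem Hloc.bilin_bdd (h1 : Hloc vol u g v) (h2 : Hloc vol w k v) (B : V →L[ℝ] W →L[ℝ] X)
    (b1 : ∀ K : Set E, IsCompact K → ∃ M, ∀ᵐ x ∂vol, x ∈ K → ‖u x‖ ≤ M)
    (b2 : ∀ K : Set E, IsCompact K → ∃ M, ∀ᵐ x ∂vol, x ∈ K → ‖w x‖ ≤ M) :
    Hloc vol (fun x => B (u x) (w x)) (fun x => B (g x) (w x) + B (u x) (k x)) v := by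
  have l1 : ∀ {a : E → V}, L2loc vol a → L2loc vol fun x => B (a x) (w x) := fun {a} ha => by
    refine ha.of_le_loc (B.aestronglyMeasurable_comp₂ ha.aesm h2.u2.aesm) fun K hK => ?_
    obtain ⟨M, hM⟩ := b2 K hK
    refine ⟨‖B‖ * M, ?_⟩
    filter_upwards [hM] with x hx hxK
    refine (B.le_opNorm₂ _ _).trans ?_
    rw [mul_right_comm]
    gcongr
    exact hx hxK
  refine ⟨l1 h1.u2, (l1 h1.g2).add ?_, h1.wd_bilin h2 B⟩
  refine h2.g2.of_le_loc (B.aestronglyMeasurable_comp₂ h1.u2.aesm h2.g2.aesm) fun K hK => ?_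
  obtain ⟨M, hM⟩ := b1 K hK
  refine ⟨‖B‖ * M, ?_⟩
  filter_upwards [hM] with x hx hxK
  refine (B.le_opNorm₂ _ _).trans ?_
  gcongr
  exact hx hxK

/-- Product with a locally Lipschitz function. -/
theorem Hloc.bilin_lip (h1 : Hloc vol u g v) (h2 : Hloc vol w k v) (B : V →L[ℝ] W →L[ℝ] X)
    (b1 : ∀ K : Set E, IsCompact K → ∃ M, ∀ᵐ x ∂vol, x ∈ K → ‖u x‖ ≤ M ∧ ‖g x‖ ≤ M) :
    Hloc vol (fun x => B (u x) (w x)) (fun x => B (g x) (w x) + B (u x) (k x)) v := by
  have l1 : ∀ {a : E → V} {b : E → W}, L2loc vol a → L2loc vol b →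
      (∀ K : Set E, IsCompact K → ∃ M, ∀ᵐ x ∂vol, x ∈ K → ‖a x‖ ≤ M) →
      L2loc vol fun x => B (a x) (b x) := fun {a b} ha hb hc => by
    refine hb.of_le_loc (B.aestronglyMeasurable_comp₂ ha.aesm hb.aesm) fun K hK => ?_
    obtain ⟨M, hM⟩ := hc K hK
    refine ⟨‖B‖ * M, ?_⟩
    filter_upwards [hM] with x hx hxK
    refine (B.le_opNorm₂ _ _).trans ?_
    gcongr
    exact hx hxK
  have c1 : ∀ K : Set E, IsCompact K → ∃ M, ∀ᵐ x ∂vol, x ∈ K → ‖u x‖ ≤ M := fun K hK => by
    obtain ⟨M, hM⟩ := b1 K hK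
    exact ⟨M, hM.mono fun x hx hxK => (hx hxK).1⟩
  have c2 : ∀ K : Set E, IsCompact K → ∃ M, ∀ᵐ x ∂vol, x ∈ K → ‖g x‖ ≤ M := fun K hK => by
    obtain ⟨M, hM⟩ := b1 K hK
    exact ⟨M, hM.mono fun x hx hxK => (hx hxK).2⟩
  exact ⟨l1 h1.u2 h2.u2 c1, (l1 h1.g2 h2.u2 c2).add (l1 h1.u2 h2.g2 c1), h1.wd_bilin h2 B⟩

omit [CompleteSpace W] in
/-- Multiplication by a bounded function with bounded derivative. -/
theorem Hg.smul_lip {φ ψ : E → ℝ} (h1 : Hloc vol φ ψ v) (h2 : Hg vol u g v) {M : ℝ}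
    (b1 : ∀ᵐ x ∂vol, |φ x| ≤ M ∧ |ψ x| ≤ M) :
    Hg vol (fun x => φ x • u x) (fun x => ψ x • u x + φ x • g x) v := by
  have h3 := h1.bilin_lip h2.loc (ContinuousLinearMap.lsmul ℝ ℝ)
    fun K _ => ⟨M, b1.mono fun x hx _ => hx⟩
  have l1 : ∀ {a : E → ℝ} {b : E → V}, AEStronglyMeasurable a vol → MemLp b 2 vol →
      (∀ᵐ x ∂vol, |a x| ≤ M) → MemLp (fun x => a x • b x) 2 vol := fun {a b} ha hb hc => by
    refine hb.of_le_mul (c := M) (ha.smul hb.1) ?_
    filter_upwards [hc] with x hx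
    rw [norm_smul]
    exact mul_le_mul_of_nonneg_right hx (norm_nonneg _)
  exact h3.glob (l1 h1.u2.aesm h2.u2 (b1.mono fun x hx => hx.1))
    ((l1 h1.g2.aesm h2.u2 (b1.mono fun x hx => hx.2)).add
      (l1 h1.u2.aesm h2.g2 (b1.mono fun x hx => hx.1)))

omit [CompleteSpace W] in
/-- A square integrable function with vanishing weak gradient vanishes. -/
theorem eq_zero_of_grad [Nontrivial E] {ι : Type*} {e : ι → E}
    (he : Submodule.span ℝ (range e) = ⊤) (hu : MemLp u 2 vol)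
    (h : ∀ i, WD vol u (fun _ => 0) (e i)) : u =ᵐ[vol] 0 := by
  have key : ∀ ε : ℝ, 0 < ε → ∫⁻ z, ‖u z‖ₑ ^ 2 ∂vol ≤ ENNReal.ofReal ε := by
    intro ε hε
    obtain ⟨r, hr, H⟩ := moll_l2 hu hε
    obtain ⟨η, hη⟩ := exists_ker vol hr
    have s1 := (moll_deriv hu hη).1
    have d0 : ∀ z, fderiv ℝ (conv vol η u) z = 0 := fun z =>
      ContinuousLinearMap.ext_on (by rw [he]; exact dense_univ) (by
        rintro _ ⟨i, rfl⟩
        rw [moll_weak hu (h i) hη]
        simp [conv])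
    have c0 := is_const_of_fderiv_eq_zero (s1.differentiable (by simp)) d0
    have e1 : conv vol η u = fun _ => conv vol η u 0 := funext fun z => c0 z 0
    have H1 := H η hη
    have m1 : MemLp (fun z => conv vol η u z - u z) 2 vol := by
      refine ⟨s1.continuous.aestronglyMeasurable.sub hu.1, ?_⟩
      rw [eLpNorm_lt_top_iff_lintegral_rpow_enorm_lt_top (by simp) (by simp)]
      simpa using H1.trans_lt ENNReal.ofReal_lt_top
    have m2 : MemLp (fun _ : E => conv vol η u 0) 2 vol := by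
      rw [← e1]
      exact (m1.add hu).ae_eq (ae_of_all _ fun z => by simp)
    rcases (memLp_const_iff (by simp) (by simp)).1 m2 with h0 | h0
    · rw [e1, h0] at H1
      simpa using H1
    · exact absurd h0 (by simp [measure_univ_of_isAddLeftInvariant])
  have h0 : ∫⁻ z, ‖u z‖ₑ ^ 2 ∂vol = 0 := by
    refine le_antisymm (ENNReal.le_of_forall_pos_le_add fun ε hε _ => ?_) zero_le
    simpa using key ε hε
  filter_upwards [(lintegral_eq_zero_iff' (hu.1.enorm.pow_const 2)).1 h0] with x hx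
  simpa using hx

end

end Vale.Agent.Lib.H1
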